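import Vale.Agent.P097.H128.NZ.Defs3
import Vale.Agent.P097.H870.FinOrd

/-! # P097 / NZ-H3: a support function which extends to an entire function of finite order -/

set_option linter.all false

open Complex Metric Filter Topology Set
open scoped ComplexConjugate ContDiff

namespace Vale.Agent.P097.H967

open Vale.Agent.P097.NZ

/-- the solutions of `h + h'' = c` -/
theorem ode_sol (h : ℝ → ℝ) (hs : ContDiff ℝ ∞ h) (c : ℝ)
    (hc : ∀ x, h x + deriv (deriv h) x = c) :
    ∀ x, h x = c + (h 0 - c) * Real.cos x + deriv h 0 * Real.sin x := by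
  have d1 : Differentiable ℝ h := hs.differentiable (by simp)
  have hs' : ContDiff ℝ ∞ (deriv h) := by
    have := hs.iterate_deriv 1
    simpa using this
  have d2 : Differentiable ℝ (deriv h) := hs'.differentiable (by simp)
  have e2 : ∀ x, HasDerivAt (deriv h) (c - h x) x := by
    intro x
    have := (d2 x).hasDerivAt
    have h3 : deriv (deriv h) x = c - h x := by linarith [hc x]
    rwa [h3] at this
  have hA : ∀ x, HasDerivAt (fun x => (h x - c) * Real.cos x - deriv h x * Real.sin x) 0 x := by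
    intro x
    have h1 := (((d1 x).hasDerivAt.sub_const c).mul (Real.hasDerivAt_cos x)).sub
      ((e2 x).mul (Real.hasDerivAt_sin x))
    refine h1.congr_deriv ?_
    ring
  have hB : ∀ x, HasDerivAt (fun x => (h x - c) * Real.sin x + deriv h x * Real.cos x) 0 x := by
    intro x
    have h1 := (((d1 x).hasDerivAt.sub_const c).mul (Real.hasDerivAt_sin x)).add
      ((e2 x).mul (Real.hasDerivAt_cos x))
    refine h1.congr_deriv ?_
    ring
  intro x
  have cA := is_const_of_deriv_eq_zero (fun y => (hA y).differentiableAt) (fun y => (hA y).deriv) x 0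
  have cB := is_const_of_deriv_eq_zero (fun y => (hB y).differentiableAt) (fun y => (hB y).deriv) x 0
  simp only [Real.cos_zero, Real.sin_zero, mul_one, mul_zero, sub_zero, zero_add] at cA cB
  have := Real.sin_sq_add_cos_sq x
  rw [← cA, ← cB]
  linear_combination (-(h x - c)) * this

/-- derivative on the real axis -/
theorem deriv_real {H : ℂ → ℂ} {h : ℝ → ℝ} (hH : Differentiable ℂ H) (hd : Differentiable ℝ h)
    (hx : ∀ x : ℝ, H x = h x) (x : ℝ) : deriv H x = (deriv h x : ℝ) := by
  have h1 : HasDerivAt (fun y : ℝ => H y) (deriv H x) x :=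
    (hH x).hasDerivAt.comp_ofReal
  have h2 : HasDerivAt (fun y : ℝ => ((h y : ℝ) : ℂ)) ((deriv h x : ℝ) : ℂ) x :=
    (hd x).hasDerivAt.ofReal_comp
  have h3 : (fun y : ℝ => H y) = fun y : ℝ => ((h y : ℝ) : ℂ) := funext hx
  rw [h3] at h1
  exact h1.unique h2

/-- periodicity of the extension -/
theorem per_ext {H : ℂ → ℂ} {h : ℝ → ℝ} (hH : Differentiable ℂ H)
    (hx : ∀ x : ℝ, H x = h x) (hp : ∀ x, h (x + 2 * Real.pi) = h x) (z : ℂ) :
    H (z + 2 * Real.pi) = H z := by
  have hF : Differentiable ℂ (fun z => H (z + 2 * Real.pi)) :=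
    hH.comp (differentiable_id.add_const _)
  have a1 : AnalyticOnNhd ℂ (fun z => H (z + 2 * Real.pi)) univ := fun z _ =>
    hF.analyticAt z
  have a2 : AnalyticOnNhd ℂ H univ := fun z _ => hH.analyticAt z
  have hfr : ∃ᶠ z in 𝓝[≠] (0 : ℂ), (fun z => H (z + 2 * Real.pi)) z = H z := by
    have ht : Tendsto (fun n : ℕ => (((1 : ℝ) / (n + 1) : ℝ) : ℂ)) atTop (𝓝[≠] (0 : ℂ)) := by
      refine tendsto_nhdsWithin_iff.2 ⟨?_, ?_⟩
      · have := (Complex.continuous_ofReal.tendsto 0).comp
          (tendsto_one_div_add_atTop_nhds_zero_nat (𝕜 := ℝ))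
        rw [Complex.ofReal_zero] at this
        exact this
      · refine Eventually.of_forall fun n => ?_
        simp only [mem_compl_iff, mem_singleton_iff]
        rw [Complex.ofReal_eq_zero]
        positivity
    refine ht.frequently (Eventually.frequently (Eventually.of_forall fun n => ?_))
    show H ((((1 : ℝ) / (n + 1) : ℝ) : ℂ) + 2 * Real.pi) = H ((((1 : ℝ) / (n + 1) : ℝ) : ℂ))
    rw [hx, ← hp, ← hx]
    push_cast
    ring_nf
  have := a1.eqOn_of_preconnected_of_frequently_eq a2 isPreconnected_univ (mem_univ (0 : ℂ)) hfr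
  exact this (mem_univ z)

theorem norm_deriv2_le {H : ℂ → ℂ} (hH : Differentiable ℂ H) (z : ℂ) {M : ℝ}
    (hM : ∀ w, ‖w - z‖ = 1 → ‖H w‖ ≤ M) : ‖deriv (deriv H) z‖ ≤ 2 * M := by
  have h1 := Complex.norm_iteratedDeriv_le_of_forall_mem_sphere_norm_le (n := 2) (c := z) (R := 1)
    (C := M) (f := H) one_pos hH.diffContOnCl
    (fun w hw => hM w (by simpa [dist_eq_norm] using hw))
  have h2 : iteratedDeriv 2 H z = deriv (deriv H) z := by
    rw [iteratedDeriv_succ, iteratedDeriv_one]
  rw [h2] at h1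
  simpa using h1

theorem growth {H : ℂ → ℂ} {C : ℝ} {k : ℕ} (hH : Differentiable ℂ H)
    (hb : ∀ z, ‖H z‖ ≤ Real.exp (C * (1 + ‖z‖ ^ k))) (z : ℂ) :
    ‖H z + deriv (deriv H) z‖ ≤ Real.exp ((2 + |C| * (1 + 2 ^ k)) * (1 + ‖z‖ ^ k)) := by
  set B : ℝ := |C| * (1 + 2 ^ k * (1 + ‖z‖ ^ k)) with hB
  have hzk : 0 ≤ ‖z‖ ^ k := by positivity
  have hkey : ∀ w : ℂ, ‖w‖ ≤ ‖z‖ + 1 → ‖H w‖ ≤ Real.exp B := by
    intro w hw
    refine (hb w).trans (Real.exp_le_exp.2 ?_)
    have h1 : ‖w‖ ^ k ≤ 2 ^ k * (1 + ‖z‖ ^ k) := by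
      have h2 : ‖w‖ ^ k ≤ (2 * max 1 ‖z‖) ^ k := by
        refine pow_le_pow_left₀ (norm_nonneg w) (hw.trans ?_) k
        have := le_max_left (1 : ℝ) ‖z‖
        have := le_max_right (1 : ℝ) ‖z‖
        linarith
      refine h2.trans ?_
      rw [mul_pow]
      refine mul_le_mul_of_nonneg_left ?_ (by positivity)
      rcases le_total 1 ‖z‖ with h | h
      · rw [max_eq_right h]; linarith
      · rw [max_eq_left h]; simp [hzk]
    calc C * (1 + ‖w‖ ^ k) ≤ |C| * (1 + ‖w‖ ^ k) :=
          mul_le_mul_of_nonneg_right (le_abs_self C) (by positivity)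
      _ ≤ B := by
          rw [hB]
          exact mul_le_mul_of_nonneg_left (by linarith) (abs_nonneg C)
  have h1 := hkey z (by linarith)
  have h2 : ‖deriv (deriv H) z‖ ≤ 2 * Real.exp B := by
    refine norm_deriv2_le hH z fun w hw => hkey w ?_
    calc ‖w‖ = ‖z + (w - z)‖ := by ring_nf
      _ ≤ ‖z‖ + ‖w - z‖ := norm_add_le _ _
      _ = ‖z‖ + 1 := by rw [hw]
  have h3 : ‖H z + deriv (deriv H) z‖ ≤ 3 * Real.exp B := by
    have := norm_add_le (H z) (deriv (deriv H) z)
    linarith
  have h4 : (3 : ℝ) ≤ Real.exp 2 := by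
    have := Real.add_one_le_exp (2 : ℝ)
    linarith
  calc ‖H z + deriv (deriv H) z‖ ≤ 3 * Real.exp B := h3
    _ ≤ Real.exp 2 * Real.exp B := mul_le_mul_of_nonneg_right h4 (Real.exp_pos _).le
    _ = Real.exp (2 + B) := by rw [Real.exp_add]
    _ ≤ _ := by
        refine Real.exp_le_exp.2 ?_
        rw [hB]
        have h5 : 0 ≤ |C| * ‖z‖ ^ k := by positivity
        have h6 : 0 ≤ |C| := abs_nonneg C
        nlinarith

theorem nzFin (m : NZMain) : NZFin := by
  intro h η hη hs hcol H C k hH hx hb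
  obtain ⟨hsm, hper, hpos⟩ := hs
  have dh : Differentiable ℝ h := hsm.differentiable (by simp)
  have hs' : ContDiff ℝ ∞ (deriv h) := by
    have := hsm.iterate_deriv 1
    simpa using this
  have dh' : Differentiable ℝ (deriv h) := hs'.differentiable (by simp)
  have hH' : Differentiable ℂ (deriv H) := fun z =>
    ((hH.analyticAt z).deriv).differentiableAt
  have hH'' : Differentiable ℂ (deriv (deriv H)) := fun z =>
    ((hH'.analyticAt z).deriv).differentiableAt
  have r1 : ∀ x : ℝ, deriv H x = (deriv h x : ℝ) := deriv_real hH dh hx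
  have r2 : ∀ x : ℝ, deriv (deriv H) x = (deriv (deriv h) x : ℝ) := deriv_real hH' dh' r1
  have hne : ∀ z, H z + deriv (deriv H) z ≠ 0 := fun z =>
    m h η hη ⟨hsm, hper, hpos⟩ hcol univ H 0 isOpen_univ isPreconnected_univ (mem_univ _)
      hH.differentiableOn (Eventually.of_forall hx) z (mem_univ z)
  have p0 : ∀ z, H (z + 2 * Real.pi) = H z := per_ext hH hx hper
  have p1 : ∀ z, deriv H (z + 2 * Real.pi) = deriv H z := by
    intro z
    have h1 : deriv (fun z => H (z + 2 * Real.pi)) z = deriv H (z + 2 * Real.pi) :=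
      deriv_comp_add_const _ _ _
    rw [← h1]
    congr 1
    exact funext p0
  have p2 : ∀ z, deriv (deriv H) (z + 2 * Real.pi) = deriv (deriv H) z := by
    intro z
    have h1 : deriv (fun z => deriv H (z + 2 * Real.pi)) z = deriv (deriv H) (z + 2 * Real.pi) :=
      deriv_comp_add_const _ _ _
    rw [← h1]
    congr 1
    exact funext p1
  obtain ⟨c, hc⟩ := Vale.Agent.P097.H870.finOrd (fun z => H z + deriv (deriv H) z)
    (2 + |C| * (1 + 2 ^ k)) k (hH.add hH'') hne (fun z => by rw [p0, p2])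
    (fun x => by rw [hx, r2, ← Complex.ofReal_add]; exact Complex.ofReal_im _)
    (growth hH hb)
  have hreal : ∀ x, h x + deriv (deriv h) x = c := by
    intro x
    have h1 := hc x
    simp only [hx, r2] at h1
    exact_mod_cast h1
  refine ⟨c, h 0 - c, deriv h 0, ?_, ode_sol h hsm c hreal⟩
  rw [← hreal 0]
  exact hpos 0

end Vale.Agent.P097.H967
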