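import Vale.Agent.P097.H967.RowL

/-!
# P097: Row L (Landau) on the strip, with a free margin exponent `M ≥ 4`

As `H967.RowL.rowL`, but `F` is only holomorphic on `|Im z| < y`, and the bound of `F'` holds up to
distance `(s⁻¹) ^ M` from the edge of the tube.
-/

set_option linter.all false

open Complex Metric Filter Topology Set

namespace Vale.Agent.P097.H967.RowLs

open Vale.Agent.P097 Vale.Agent.P097.CD Vale.Agent.P097.H456.D1 Vale.Agent.P097.H967.RowL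

/-- the bound of `F'` at one vertex from closeness of the positions -/
theorem core {F q : ℂ → ℂ} {y ρ : ℝ} {A P θ : ℂ × ℂ → ℂ}
    (hF : DifferentiableOn ℂ F {z : ℂ | |z.im| < y}) (hA : AnalyticOnNhd ℂ A (Tb y ρ))
    (hA0 : ∀ t : ℂ, |t.im| < y → A (t, 0) = F t) (H : Po F q y ρ A P θ) (hρ : 0 < ρ)
    {x : ℂ} {η δ R : ℝ} (hη : 0 < η) (hδ0 : 0 ≤ δ) (hδ : 4 * δ ≤ η) (hR0 : 0 < R)
    (hRρ : R ≤ ρ / 16) (hxy : |x.im| < y - 3 * ρ)
    (hdom : ∀ t w : ℂ, ‖t - x‖ < η → ‖w‖ < R → |t.im| < y - 3 * ρ)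
    (hcl : ∀ t w : ℂ, ‖t - x‖ < η → ‖w‖ < R → ‖θ (t, w) - t‖ ≤ δ) :
    ‖deriv F x‖ ≤ 4 * Real.pi * C1 / R := by
  have hC1 := one_le_C1
  have hmem : ∀ t w : ℂ, ‖t - x‖ < η → ‖w‖ < R → (t, w) ∈ Tb (y - ρ) ρ := by
    intro t w ht hw
    have := hdom t w ht hw
    exact ⟨by linarith, by simp only; linarith⟩
  obtain ⟨T, hTd, hTx, hTe, hTu⟩ := solve (h := fun u => θ u - u.1) (x := x) (η := η)
    (δ := δ) (R := R) hη hδ0 hδ
    (fun t w ht hw => (H.an _ (hmem t w ht hw)).differentiableAt.sub differentiableAt_fst)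
    (fun t w ht hw => hcl t w ht hw)
  by_cases hg : deriv F x = 0
  · rw [hg, norm_zero]; positivity
  -- properties of `T`
  have hTe' : ∀ w, ‖w‖ < R → θ (T w, w) = x := by
    intro w hw
    have := hTe w hw
    simp only at this
    linear_combination this
  have hTx' : ∀ w, ‖w‖ < R → ‖T w - x‖ < η := by
    intro w hw
    have := hTx w hw
    linarith
  have hxim : |x.im| < y - ρ := by linarith
  have hT0 : T 0 = x := by
    symm
    refine hTu x 0 (by simpa using hR0) (by simp; linarith) ?_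
    simp only
    rw [H.z x hxim]; ring
  have hTev : ∀ w, ‖w‖ < R → T (-w) = T w := by
    intro w hw
    have hw' : ‖-w‖ < R := by rwa [norm_neg]
    refine hTu _ _ hw (by linarith [hTx _ hw']) ?_
    have h1 := hTe' _ hw'
    have h2 := H.ev (T (-w)) w (hmem _ _ (hTx' _ hw') hw)
    simp only
    rw [← h2, h1]; ring
  have h0R : ball (0 : ℂ) R ∈ 𝓝 (0 : ℂ) := ball_mem_nhds _ hR0
  have hT' : HasDerivAt T 0 0 := by
    have h1 : HasDerivAt T (deriv T 0) 0 :=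
      ((hTd 0 (mem_ball_self hR0)).differentiableAt h0R).hasDerivAt
    have h2 : HasDerivAt (fun w => T (-w)) (deriv T 0 * (-1)) 0 := by
      have h3 : HasDerivAt T (deriv T 0) (-(0 : ℂ)) := by rwa [neg_zero]
      exact h3.comp (0 : ℂ) (hasDerivAt_neg 0)
    have h3 : HasDerivAt (fun w => T (-w)) (deriv T 0) 0 := by
      refine h1.congr_of_eventuallyEq ?_
      filter_upwards [h0R] with w hw
      exact hTev w (by rwa [mem_ball_zero_iff] at hw)
    have h4 := h2.unique h3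
    have h5 : deriv T 0 = 0 := by linear_combination (-1 / 2 : ℂ) * h4
    rwa [h5] at h1
  -- points of the tube
  have hTb : ∀ w, ‖w‖ < R → (T w + w / 2, w) ∈ Tb y ρ ∧ (T w - w / 2, w) ∈ Tb y ρ := by
    intro w hw
    have h1 := hdom _ _ (hTx' w hw) hw
    obtain ⟨h2, h3⟩ := Vale.Agent.P097.H710.half_im (T w) w
    exact ⟨⟨by linarith, by simp only; linarith⟩, ⟨by linarith, by simp only; linarith⟩⟩
  set D : ℂ → ℂ := fun w => A (T w + w / 2, w) - F x with hDdef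
  have hTd' : ∀ w, ‖w‖ < R → DifferentiableAt ℂ T w := by
    intro w hw
    have hw' : w ∈ ball (0 : ℂ) R := by rwa [mem_ball_zero_iff]
    exact (hTd w hw').differentiableAt (isOpen_ball.mem_nhds hw')
  have hDd : DifferentiableOn ℂ D (ball 0 R) := by
    intro w hw
    rw [mem_ball_zero_iff] at hw
    have h1 : DifferentiableAt ℂ (fun w => ((T w + w / 2, w) : ℂ × ℂ)) w :=
      ((hTd' w hw).add (differentiableAt_id.div_const 2)).prodMk differentiableAt_id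
    have h2 := (hA _ (hTb w hw).1).differentiableAt.comp
      (f := fun w => ((T w + w / 2, w) : ℂ × ℂ)) w h1
    exact (h2.sub_const (F x)).differentiableWithinAt
  have hD0 : D 0 = 0 := by
    simp only [hDdef, hT0]
    rw [zero_div, add_zero, hA0 x (by linarith), sub_self]
  have hDs : ∀ w, ‖w‖ < R → sin (D w) = 0 → D w = 0 := by
    intro w hw hs'
    by_cases hw0 : w = 0
    · rw [hw0]; exact hD0
    exfalso
    have hm := hmem _ _ (hTx' w hw) hw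
    have h1 := H.tg (T w) w hm hw0 (by rwa [hTe' w hw])
    have h2 := H.sA (T w) w hm
    rw [hTe' w hw] at h2
    refine h1 ?_
    have h3 : (A (T w + w / 2, w) - A (T w - w / 2, w)) / 2 = D w := by
      simp only [hDdef]
      linear_combination (-1 / 2 : ℂ) * h2
    rw [h3]; exact hs'
  -- the derivative at `0`
  have hA1 : HasFDerivAt A (fderiv ℂ A (x, 0)) (x, 0) := by
    have : ((x, 0) : ℂ × ℂ) ∈ Tb y ρ := ⟨by simp only; linarith, by simpa using hρ⟩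
    exact (hA _ this).differentiableAt.hasFDerivAt
  have hp : HasDerivAt (fun w => ((T w + w / 2, w) : ℂ × ℂ)) (1 / 2, 1) 0 := by
    have a1 : HasDerivAt (fun w : ℂ => T w + w / 2) (0 + 1 / 2) 0 :=
      hT'.add ((hasDerivAt_id (0 : ℂ)).div_const 2)
    rw [zero_add] at a1
    exact a1.prodMk (hasDerivAt_id (0 : ℂ))
  have hm' : HasDerivAt (fun w => ((T w - w / 2, w) : ℂ × ℂ)) (-(1 / 2), 1) 0 := by
    have a1 : HasDerivAt (fun w : ℂ => T w - w / 2) (0 - 1 / 2) 0 :=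
      hT'.sub ((hasDerivAt_id (0 : ℂ)).div_const 2)
    rw [zero_sub] at a1
    exact a1.prodMk (hasDerivAt_id (0 : ℂ))
  have hpA : HasDerivAt (fun w => A (T w + w / 2, w)) (fderiv ℂ A (x, 0) (1 / 2, 1)) 0 := by
    have h1 : HasFDerivAt A (fderiv ℂ A (x, 0)) ((fun w => ((T w + w / 2, w) : ℂ × ℂ)) 0) := by
      simpa [hT0] using hA1
    exact HasFDerivAt.comp_hasDerivAt (f := fun w => ((T w + w / 2, w) : ℂ × ℂ)) (0 : ℂ) h1 hp
  have hmA : HasDerivAt (fun w => A (T w - w / 2, w)) (fderiv ℂ A (x, 0) (-(1 / 2), 1)) 0 := by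
    have h1 : HasFDerivAt A (fderiv ℂ A (x, 0)) ((fun w => ((T w - w / 2, w) : ℂ × ℂ)) 0) := by
      simpa [hT0] using hA1
    exact HasFDerivAt.comp_hasDerivAt (f := fun w => ((T w - w / 2, w) : ℂ × ℂ)) (0 : ℂ) h1 hm'
  have hsum : fderiv ℂ A (x, 0) (1 / 2, 1) + fderiv ℂ A (x, 0) (-(1 / 2), 1) = 0 := by
    have h1 := hpA.add hmA
    have h2 : HasDerivAt (fun w => A (T w + w / 2, w) + A (T w - w / 2, w)) 0 0 := by
      refine (hasDerivAt_const (0 : ℂ) (2 * F x)).congr_of_eventuallyEq ?_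
      filter_upwards [h0R] with w hw
      rw [mem_ball_zero_iff] at hw
      have h3 := H.sA (T w) w (hmem _ _ (hTx' w hw) hw)
      rw [hTe' w hw] at h3
      exact h3
    exact h1.unique h2
  have hAt : fderiv ℂ A (x, 0) (1, 0) = deriv F x := by
    have h1 : HasDerivAt (fun t : ℂ => A (t, 0)) (fderiv ℂ A (x, 0) (1, 0)) x := by
      have h2 : HasDerivAt (fun t : ℂ => ((t, 0) : ℂ × ℂ)) (1, 0) x :=
        (hasDerivAt_id x).prodMk (hasDerivAt_const x 0)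
      exact hA1.comp_hasDerivAt x h2
    have h3 : HasDerivAt (fun t : ℂ => A (t, 0)) (deriv F x) x := by
      have h4 : {t : ℂ | |t.im| < y} ∈ 𝓝 x := by
        refine IsOpen.mem_nhds ?_ (show |x.im| < y by linarith)
        exact isOpen_lt (continuous_abs.comp Complex.continuous_im) continuous_const
      refine (hF.differentiableAt h4).hasDerivAt.congr_of_eventuallyEq ?_
      filter_upwards [h4] with t ht
      exact hA0 t ht
    exact h1.unique h3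
  have hder : fderiv ℂ A (x, 0) (1 / 2, 1) = deriv F x / 2 := by
    have e1 : ((1 / 2, 1) : ℂ × ℂ) = (1 / 2 : ℂ) • ((1, 0) : ℂ × ℂ) + (0, 1) := by
      ext <;> simp
    have e2 : ((-(1 / 2), 1) : ℂ × ℂ) = (-(1 / 2) : ℂ) • ((1, 0) : ℂ × ℂ) + (0, 1) := by
      ext <;> simp
    rw [e1, e2] at hsum
    rw [e1]
    simp only [map_add, map_smul, hAt, smul_eq_mul] at hsum ⊢
    linear_combination (1 / 2 : ℂ) * hsum
  have hDder : HasDerivAt D (deriv F x / 2) 0 := by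
    have := hpA.sub_const (F x)
    rw [hder] at this
    exact this
  have key := landau hR0 hDd hD0 hDs hDder
  rw [norm_div] at key
  have h2 : ‖(2 : ℂ)‖ = 2 := by simp
  rw [h2, div_le_iff₀ (by norm_num)] at key
  refine key.trans (le_of_eq ?_)
  ring

/-- sizes -/
theorem sizes {s σ ρ CS C₁ : ℝ} {m : ℕ} (hs4 : 4 ≤ s) (hσ : σ = s⁻¹) (hCS : 1 ≤ CS)
    (hC₁ : 1 ≤ C₁) (hρ : 0 < ρ) (hCρ : C₁ * ρ ≤ σ ^ (4 + m + 2)) {w : ℂ}
    (hw : ‖w‖ < ρ * σ ^ (4 + m) / (16 * CS)) :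
    ‖w‖ ≤ ρ / (CS * s) ∧
    CS * s ^ 2 * (‖w‖ / ρ) ^ 2 + CS * C₁ * ‖w‖ ≤ σ ^ (4 + m + 2) / 8 := by
  have hs0 : 0 < s := by linarith
  have hσ0 : 0 < σ := by rw [hσ]; exact inv_pos.2 hs0
  have hσ4 : σ ≤ 1 / 4 := by
    rw [hσ, inv_le_comm₀ hs0 (by norm_num)]; norm_num; exact hs4
  have hsσ : s * σ = 1 := by rw [hσ]; exact mul_inv_cancel₀ hs0.ne'
  set μ : ℝ := σ ^ m with hμ
  have hμ0 : 0 < μ := by positivity
  have hμ1 : μ ≤ 1 := pow_le_one₀ hσ0.le (by linarith)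
  have e4 : σ ^ (4 + m) = σ ^ 4 * μ := pow_add _ _ _
  have e6 : σ ^ (4 + m + 2) = σ ^ 6 * μ := by rw [pow_add, e4]; ring
  rw [e4] at hw
  rw [e6] at hCρ ⊢
  refine ⟨?_, ?_⟩
  · refine hw.le.trans ?_
    rw [div_le_div_iff₀ (by positivity) (by positivity)]
    have h1 : ρ * (σ ^ 4 * μ) * (CS * s) = ρ * CS * (σ ^ 3 * μ) * (s * σ) := by ring
    rw [h1, hsσ]
    have h2 : σ ^ 3 * μ ≤ 1 := mul_le_one₀ (pow_le_one₀ hσ0.le (by linarith)) hμ0.le hμ1
    have h3 : 0 < ρ * CS := by positivity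
    nlinarith
  · have h2 : ‖w‖ / ρ ≤ σ ^ 4 * μ / (16 * CS) := by
      rw [div_le_iff₀ hρ]
      calc ‖w‖ ≤ ρ * (σ ^ 4 * μ) / (16 * CS) := hw.le
        _ = _ := by ring
    have h3 : CS * s ^ 2 * (‖w‖ / ρ) ^ 2 ≤ σ ^ 6 * μ / 16 := by
      calc CS * s ^ 2 * (‖w‖ / ρ) ^ 2 ≤ CS * s ^ 2 * (σ ^ 4 * μ / (16 * CS)) ^ 2 := by gcongr
        _ = (s * σ) ^ 2 * (σ ^ 6 * μ * μ) / (256 * CS) := by field_simp; ring
        _ = σ ^ 6 * μ * μ / (256 * CS) := by rw [hsσ]; ring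
        _ ≤ σ ^ 6 * μ / 16 := by
            rw [div_le_div_iff₀ (by positivity) (by norm_num)]
            have h4 : 0 < σ ^ 6 * μ := by positivity
            have h5 : σ ^ 6 * μ * μ ≤ σ ^ 6 * μ * 1 := by gcongr
            nlinarith
    have h4 : CS * C₁ * ‖w‖ ≤ σ ^ 6 * μ / 16 := by
      calc CS * C₁ * ‖w‖ ≤ CS * C₁ * (ρ * (σ ^ 4 * μ) / (16 * CS)) := by gcongr
        _ = (C₁ * ρ) * (σ ^ 4 * μ) / 16 := by field_simp
        _ ≤ σ ^ 6 * μ * (σ ^ 4 * μ) / 16 := by gcongr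
        _ ≤ σ ^ 6 * μ / 16 := by
            have h5 : σ ^ 4 * μ ≤ 1 := mul_le_one₀ (pow_le_one₀ hσ0.le (by linarith)) hμ0.le hμ1
            have h6 : 0 < σ ^ 6 * μ := by positivity
            nlinarith
    linarith

/-- **Row L, strip form** -/
theorem rowLs (M : ℕ) (hM : 4 ≤ M) : ∃ C : ℝ, 1 ≤ C ∧ ∀ {F q : ℂ → ℂ} {y ρ C₁ s : ℝ}
    {A P θ : ℂ × ℂ → ℂ}, DifferentiableOn ℂ F {z : ℂ | |z.im| < y} →
    AnalyticOnNhd ℂ A (Tb y ρ) → (∀ t : ℂ, |t.im| < y → A (t, 0) = F t) →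
    Po F q y ρ A P θ → Lo1 ρ C₁ θ → 0 < ρ → ρ ≤ 1 → 4 * ρ < y → C ≤ s → Real.log (1 / ρ) ≤ s →
    y ≤ s → 1 ≤ C₁ → C₁ * ρ ≤ (s⁻¹) ^ (M + 2) → ∀ x : ℂ, |x.im| < y - (s⁻¹) ^ M →
    ‖deriv F x‖ ≤ C * s ^ M / ρ := by
  obtain ⟨m, rfl⟩ := Nat.exists_eq_add_of_le hM
  obtain ⟨CS, hCS, HS⟩ := Vale.Agent.P097.H710.rowS
  have hC1 := one_le_C1
  have hpi := Real.pi_gt_three
  refine ⟨64 * Real.pi * C1 * CS + 4, by nlinarith [mul_pos (mul_pos (by norm_num : (0:ℝ) < 64) Real.pi_pos) (by linarith : (0:ℝ) < C1)], ?_⟩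
  intro F q y ρ C₁ s A P θ hF hA hA0 H hLo hρ hρ1 hy hs hls hys hC₁ hCρ x hx
  have hK : 0 < 64 * Real.pi * C1 * CS := by positivity
  have hs4 : 4 ≤ s := by linarith
  have hs0 : 0 < s := by linarith
  obtain ⟨σ, hσ⟩ : ∃ σ : ℝ, σ = s⁻¹ := ⟨_, rfl⟩
  rw [← hσ] at hCρ hx
  have hσ0 : 0 < σ := by rw [hσ]; exact inv_pos.2 hs0
  have hσ4 : σ ≤ 1 / 4 := by
    rw [hσ, inv_le_comm₀ hs0 (by norm_num)]; norm_num; exact hs4
  have hsσ : s * σ = 1 := by rw [hσ]; exact mul_inv_cancel₀ hs0.ne'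
  obtain ⟨τ, hτ⟩ : ∃ τ : ℝ, τ = σ ^ (4 + m) := ⟨_, rfl⟩
  have e6 : σ ^ (4 + m + 2) = τ * σ ^ 2 := by rw [pow_add, hτ]
  have hτ0 : 0 < τ := by rw [hτ]; positivity
  have hτ1 : τ ≤ 1 := by rw [hτ]; exact pow_le_one₀ hσ0.le (by linarith)
  have hσ2 : σ ^ 2 ≤ 1 / 16 := by nlinarith
  have hσ20 : 0 < σ ^ 2 := by positivity
  have hτσ : τ * σ ^ 2 ≤ τ / 16 := by nlinarith
  have hρτ : ρ ≤ τ * σ ^ 2 := by rw [← e6]; nlinarith
  have hR0 : 0 < ρ * σ ^ (4 + m) / (16 * CS) := by positivity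
  have hRρ : ρ * σ ^ (4 + m) / (16 * CS) ≤ ρ / 16 := by
    rw [← hτ, div_le_div_iff₀ (by positivity) (by norm_num)]
    have : ρ * τ * 16 ≤ ρ * 1 * 16 := by gcongr
    nlinarith
  rw [← hτ] at hx
  have key := core (q := q) (P := P) hF hA hA0 H hρ (x := x) (η := τ / 2)
    (δ := σ ^ (4 + m + 2) / 8) (R := ρ * σ ^ (4 + m) / (16 * CS)) (by positivity)
    (by positivity) (by rw [e6]; linarith) hR0 hRρ (by linarith)
    (by
      intro t w ht hw
      have h1 : |t.im| ≤ |x.im| + ‖t - x‖ := by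
        have : t.im = x.im + (t - x).im := by simp
        rw [this]
        exact (abs_add_le _ _).trans (by gcongr; exact abs_im_le_norm _)
      linarith)
    (by
      intro t w ht hw
      have h1 : |t.im| ≤ |x.im| + ‖t - x‖ := by
        have : t.im = x.im + (t - x).im := by simp
        rw [this]
        exact (abs_add_le _ _).trans (by gcongr; exact abs_im_le_norm _)
      obtain ⟨h2, h3⟩ := sizes hs4 hσ hCS hC₁ hρ hCρ hw
      have h4 := (HS H hLo hρ hρ1 hy (by linarith) hls hys hC₁ t w (by linarith) h2).2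
      exact h4.trans h3)
  refine key.trans ?_
  have hσs : σ ^ (4 + m) * s ^ (4 + m) = 1 := by
    rw [← mul_pow, mul_comm, hsσ, one_pow]
  have e3 : 4 * Real.pi * C1 / (ρ * σ ^ (4 + m) / (16 * CS))
      = 64 * Real.pi * C1 * CS * s ^ (4 + m) / ρ := by
    have h5 : σ ^ (4 + m) = (s ^ (4 + m))⁻¹ := eq_inv_of_mul_eq_one_left hσs
    rw [h5]
    field_simp
    ring
  rw [e3]
  gcongr
  linarith

end Vale.Agent.P097.H967.RowLs
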