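import Vale.Agent.P097.H710.RowS

/-!
# P097 / case [d]: Row L (Landau)

For a fixed vertex `x` let `T (w)` be the phase with `θ (T (w), w) = x`.  The half turning angle
`D (w) = A (T + w / 2, w) - F x` omits `± π` on `|w| < ρ / (K s ^ 4)`, `D (0) = 0`,
`D' (0) = F' (x) / 2`.
-/

set_option linter.all false

open Complex Metric Filter Topology Set

namespace Vale.Agent.P097.H967.RowL

open Vale.Agent.P097 Vale.Agent.P097.CD Vale.Agent.P097.H456.D1

/-- Lipschitz bound by Cauchy -/
theorem lip {f : ℂ → ℂ} {x : ℂ} {η δ : ℝ} (hη : 0 < η) (hδ : 4 * δ ≤ η)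
    (hf : ∀ t, ‖t - x‖ < η → DifferentiableAt ℂ f t) (hb : ∀ t, ‖t - x‖ < η → ‖f t‖ ≤ δ)
    {a b : ℂ} (ha : ‖a - x‖ ≤ η / 2) (hb' : ‖b - x‖ ≤ η / 2) :
    ‖f b - f a‖ ≤ 1 / 2 * ‖b - a‖ := by
  have hd : ∀ t ∈ closedBall x (η / 2), ‖deriv f t‖ ≤ 1 / 2 := by
    intro t ht
    rw [mem_closedBall, dist_eq_norm] at ht
    have h1 : ∀ r, 0 < r → r < η / 2 → ‖deriv f t‖ ≤ δ / r := by
      intro r hr hr2
      refine Complex.norm_deriv_le_of_forall_mem_sphere_norm_le hr ?_ ?_
      · refine DifferentiableOn.diffContOnCl_ball (U := ball x η) ?_ ?_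
        · intro z hz
          rw [mem_ball, dist_eq_norm] at hz
          exact (hf z hz).differentiableWithinAt
        · intro z hz
          rw [mem_closedBall, dist_eq_norm] at hz
          rw [mem_ball, dist_eq_norm]
          calc ‖z - x‖ ≤ ‖z - t‖ + ‖t - x‖ := by
                have : z - x = (z - t) + (t - x) := by ring
                rw [this]; exact norm_add_le _ _
            _ < η := by linarith
      · intro z hz
        rw [mem_sphere, dist_eq_norm] at hz
        refine hb z ?_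
        calc ‖z - x‖ ≤ ‖z - t‖ + ‖t - x‖ := by
              have : z - x = (z - t) + (t - x) := by ring
              rw [this]; exact norm_add_le _ _
          _ < η := by linarith
    have h2 : Tendsto (fun r : ℝ => δ / r) (𝓝[<] (η / 2)) (𝓝 (δ / (η / 2))) := by
      refine Tendsto.mono_left ?_ nhdsWithin_le_nhds
      exact tendsto_const_nhds.div tendsto_id (by positivity)
    have h3 : ∀ᶠ r in 𝓝[<] (η / 2), ‖deriv f t‖ ≤ δ / r := by
      have : Ioo 0 (η / 2) ∈ 𝓝[<] (η / 2) := Ioo_mem_nhdsLT (by positivity)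
      filter_upwards [this] with r hr
      exact h1 r hr.1 hr.2
    have h4 := ge_of_tendsto h2 h3
    refine h4.trans ?_
    rw [div_le_iff₀ (by positivity)]
    linarith
  have := Convex.norm_image_sub_le_of_norm_deriv_le (f := f) (s := closedBall x (η / 2))
    (C := 1 / 2) (x := a) (y := b) (fun t ht => ?_) hd (convex_closedBall _ _)
    (by rwa [mem_closedBall, dist_eq_norm]) (by rwa [mem_closedBall, dist_eq_norm])
  · exact this
  · rw [mem_closedBall, dist_eq_norm] at ht
    exact hf t (by linarith)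

/-- solution of `T + h (T, w) = x` -/
theorem solve {h : ℂ × ℂ → ℂ} {x : ℂ} {η δ R : ℝ} (hη : 0 < η) (hδ0 : 0 ≤ δ) (hδ : 4 * δ ≤ η)
    (hf : ∀ t w, ‖t - x‖ < η → ‖w‖ < R → DifferentiableAt ℂ h (t, w))
    (hb : ∀ t w, ‖t - x‖ < η → ‖w‖ < R → ‖h (t, w)‖ ≤ δ) :
    ∃ T : ℂ → ℂ, DifferentiableOn ℂ T (ball 0 R) ∧ (∀ w, ‖w‖ < R → ‖T w - x‖ ≤ δ) ∧
      (∀ w, ‖w‖ < R → T w + h (T w, w) = x) ∧
      (∀ t w, ‖w‖ < R → ‖t - x‖ ≤ η / 2 → t + h (t, w) = x → t = T w) := by
  have hl : ∀ w, ‖w‖ < R → ∀ a b, ‖a - x‖ ≤ η / 2 → ‖b - x‖ ≤ η / 2 →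
      ‖h (b, w) - h (a, w)‖ ≤ 1 / 2 * ‖b - a‖ := by
    intro w hw a b ha hb'
    refine lip (f := fun t => h (t, w)) hη hδ (fun t ht => ?_) (fun t ht => hb t w ht hw) ha hb'
    exact (hf t w ht hw).comp (f := fun t : ℂ => ((t, w) : ℂ × ℂ)) t (by fun_prop)
  let S : ℕ → ℂ → ℂ := fun n => Nat.rec (fun _ => x) (fun _ f w => x - h (f w, w)) n
  have S0 : ∀ w, S 0 w = x := fun w => rfl
  have Ss : ∀ n w, S (n + 1) w = x - h (S n w, w) := fun n w => rfl
  have hS : ∀ n w, ‖w‖ < R → ‖S n w - x‖ ≤ δ := by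
    intro n
    induction n with
    | zero => intro w hw; rw [S0, sub_self, norm_zero]; exact hδ0
    | succ n ih =>
      intro w hw
      rw [Ss]
      have : x - h (S n w, w) - x = -h (S n w, w) := by ring
      rw [this, norm_neg]
      exact hb _ _ (by linarith [ih w hw]) hw
  have hstep : ∀ w, ‖w‖ < R → ∀ n, dist (S n w) (S (n + 1) w) ≤ δ * (1 / 2) ^ n := by
    intro w hw n
    induction n with
    | zero =>
      rw [S0, dist_comm, dist_eq_norm, pow_zero, mul_one]
      exact hS 1 w hw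
    | succ n ih =>
      rw [dist_eq_norm, Ss, Ss (n + 1)]
      have e1 : x - h (S n w, w) - (x - h (S (n + 1) w, w)) = h (S (n + 1) w, w) - h (S n w, w) := by
        ring
      rw [e1]
      have h1 := hl w hw (S n w) (S (n + 1) w) (by linarith [hS n w hw])
        (by linarith [hS (n + 1) w hw])
      rw [dist_comm, dist_eq_norm] at ih
      calc _ ≤ 1 / 2 * ‖S (n + 1) w - S n w‖ := h1
        _ ≤ 1 / 2 * (δ * (1 / 2) ^ n) := by gcongr
        _ = δ * (1 / 2) ^ (n + 1) := by ring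
  have hconv : ∀ w, ‖w‖ < R → ∃ l, Tendsto (fun n => S n w) atTop (𝓝 l) := by
    intro w hw
    exact cauchySeq_tendsto_of_complete
      (cauchySeq_of_le_geometric (1 / 2) δ (by norm_num) (hstep w hw))
  choose! T hT using hconv
  have hdist : ∀ n w, ‖w‖ < R → dist (S n w) (T w) ≤ δ * (1 / 2) ^ n / (1 - 1 / 2) := by
    intro n w hw
    exact dist_le_of_le_geometric_of_tendsto (1 / 2) δ (by norm_num) (hstep w hw) (hT w hw) n
  have hTx : ∀ w, ‖w‖ < R → ‖T w - x‖ ≤ δ := by
    intro w hw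
    have h1 : Tendsto (fun n => ‖S n w - x‖) atTop (𝓝 ‖T w - x‖) :=
      ((hT w hw).sub_const x).norm
    exact le_of_tendsto h1 (Eventually.of_forall fun n => hS n w hw)
  have hdS : ∀ n, DifferentiableOn ℂ (S n) (ball 0 R) := by
    intro n
    induction n with
    | zero => exact differentiableOn_const x
    | succ n ih =>
      intro w hw
      have hw' : ‖w‖ < R := by rwa [mem_ball_zero_iff] at hw
      have h1 : DifferentiableAt ℂ (S n) w := (ih w hw).differentiableAt (isOpen_ball.mem_nhds hw)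
      have h2 : DifferentiableAt ℂ (fun w => h (S n w, w)) w :=
        (hf (S n w) w (by linarith [hS n w hw']) hw').comp (f := fun w => ((S n w, w) : ℂ × ℂ)) w
          (h1.prodMk differentiableAt_id)
      exact ((differentiableAt_const x).sub h2).differentiableWithinAt
  refine ⟨T, ?_, hTx, ?_, ?_⟩
  · refine TendstoLocallyUniformlyOn.differentiableOn (φ := atTop) (F := S) ?_
      (Eventually.of_forall hdS) isOpen_ball
    refine TendstoUniformlyOn.tendstoLocallyUniformlyOn ?_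
    rw [Metric.tendstoUniformlyOn_iff]
    intro ε hε
    have h1 : Tendsto (fun n : ℕ => δ * (1 / 2 : ℝ) ^ n / (1 - 1 / 2)) atTop
        (𝓝 (δ * 0 / (1 - 1 / 2))) :=
      ((tendsto_pow_atTop_nhds_zero_of_lt_one (by norm_num) (by norm_num)).const_mul δ).div_const _
    have h2 : ∀ᶠ n : ℕ in atTop, δ * (1 / 2 : ℝ) ^ n / (1 - 1 / 2) < ε :=
      h1.eventually_lt_const (by simpa using hε)
    filter_upwards [h2] with n hn w hw
    rw [mem_ball_zero_iff] at hw
    rw [dist_comm]
    exact (hdist n w hw).trans_lt hn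
  · intro w hw
    have h1 : Tendsto (fun n => S (n + 1) w) atTop (𝓝 (T w)) :=
      (hT w hw).comp (tendsto_add_atTop_nat 1)
    have h2 : Tendsto (fun n => x - h (S n w, w)) atTop (𝓝 (x - h (T w, w))) := by
      have h3 : ContinuousAt (fun t => h (t, w)) (T w) :=
        ((hf (T w) w (by linarith [hTx w hw]) hw).comp (f := fun t : ℂ => ((t, w) : ℂ × ℂ)) (T w)
          (by fun_prop)).continuousAt
      exact tendsto_const_nhds.sub (h3.tendsto.comp (hT w hw))
    have h3 := tendsto_nhds_unique h1 (by simpa [Ss] using h2)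
    rw [h3]
    have : x - h (T w, w) = T w := h3.symm
    rw [this]
    linear_combination -this
  · intro t w hw ht he
    have h3 : T w + h (T w, w) = x := by
      have h1 : Tendsto (fun n => S (n + 1) w) atTop (𝓝 (T w)) :=
        (hT w hw).comp (tendsto_add_atTop_nat 1)
      have h2 : Tendsto (fun n => x - h (S n w, w)) atTop (𝓝 (x - h (T w, w))) := by
        have h3 : ContinuousAt (fun t => h (t, w)) (T w) :=
          ((hf (T w) w (by linarith [hTx w hw]) hw).comp (f := fun t : ℂ => ((t, w) : ℂ × ℂ)) (T w)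
            (by fun_prop)).continuousAt
        exact tendsto_const_nhds.sub (h3.tendsto.comp (hT w hw))
      have h4 := tendsto_nhds_unique h1 (by simpa [Ss] using h2)
      linear_combination h4
    have h4 := hl w hw t (T w) ht (by linarith [hTx w hw])
    have h5 : h (T w, w) - h (t, w) = -(T w - t) := by linear_combination h3 - he
    rw [h5, norm_neg] at h4
    have h6 : ‖T w - t‖ = 0 := by
      have := norm_nonneg (T w - t)
      linarith
    have h7 := norm_eq_zero.1 h6
    linear_combination -h7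

/-- Landau for functions omitting `± π` -/
theorem landau {D : ℂ → ℂ} {R : ℝ} (hR : 0 < R) (hD : DifferentiableOn ℂ D (ball 0 R))
    (h0 : D 0 = 0) (h1 : ∀ w, ‖w‖ < R → sin (D w) = 0 → D w = 0) {d : ℂ}
    (hd : HasDerivAt D d 0) : ‖d‖ ≤ 2 * Real.pi * C1 / R := by
  have hpi : (Real.pi : ℂ) ≠ 0 := by exact_mod_cast Real.pi_ne_zero
  have hS : ∀ w ∈ closedBall (0 : ℂ) (R / 2), ‖D w / Real.pi‖ ≤ C1 := by
    intro w hw
    have := schottky_pm (f := fun w => D w / Real.pi) (c := 0) (R := R) (ρ := R / 2) (a := 0)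
      (hD.div_const _) ?_ ?_ (by linarith) (by simp [h0]) (z := w) hw
    · have e : R / 2 / R = 1 / 2 := by field_simp
      rw [e, zero_add] at this
      exact this
    · intro z hz he
      rw [mem_ball_zero_iff] at hz
      have h2 : D z = Real.pi := by rwa [div_eq_one_iff_eq hpi] at he
      have h3 := h1 z hz (by rw [h2]; exact Complex.sin_pi)
      rw [h2] at h3
      exact hpi h3
    · intro z hz he
      rw [mem_ball_zero_iff] at hz
      have h2 : D z = -Real.pi := by
        rw [div_eq_iff hpi] at he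
        rw [he]; ring
      have h3 := h1 z hz (by rw [h2, Complex.sin_neg, Complex.sin_pi, neg_zero])
      rw [h2] at h3
      exact hpi (neg_eq_zero.1 h3)
  have h2 : ‖deriv D 0‖ ≤ (Real.pi * C1) / (R / 2) := by
    refine Complex.norm_deriv_le_of_forall_mem_sphere_norm_le (by positivity) ?_ ?_
    · refine DifferentiableOn.diffContOnCl_ball (U := ball 0 R) hD ?_
      exact closedBall_subset_ball (by linarith)
    · intro z hz
      have h3 := hS z (sphere_subset_closedBall hz)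
      rw [norm_div, Complex.norm_real, Real.norm_eq_abs, abs_of_pos Real.pi_pos,
        div_le_iff₀ Real.pi_pos] at h3
      linarith
  rw [hd.deriv] at h2
  calc ‖d‖ ≤ (Real.pi * C1) / (R / 2) := h2
    _ = 2 * Real.pi * C1 / R := by field_simp

/-- **Row L** -/
theorem rowL : RowL := by
  obtain ⟨CS, hCS, HS⟩ := Vale.Agent.P097.H710.rowS
  have hC1 := one_le_C1
  have hpi := Real.pi_gt_three
  refine ⟨64 * Real.pi * C1 * CS + 4, by nlinarith [mul_pos (mul_pos (by norm_num : (0:ℝ) < 64) Real.pi_pos) (by linarith : (0:ℝ) < C1)], ?_⟩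
  intro F q y ρ C₁ s A P θ hF hA hA0 H hLo hρ hρ1 hy hs hls hys hC₁ hCρ x hx
  have hK : 0 < 64 * Real.pi * C1 * CS := by positivity
  have hs4 : 4 ≤ s := by linarith
  have hs0 : 0 < s := by linarith
  -- sizes
  set σ : ℝ := s⁻¹ with hσ
  have hσ0 : 0 < σ := inv_pos.2 hs0
  have hσ4 : σ ≤ 1 / 4 := by
    rw [hσ, inv_le_comm₀ hs0 (by norm_num)]; norm_num; exact hs4
  have hsσ : s * σ = 1 := mul_inv_cancel₀ hs0.ne'
  set R : ℝ := ρ * σ ^ 4 / (16 * CS) with hR
  have hR0 : 0 < R := by positivity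
  have hσp : σ ^ 4 ≤ 1 := pow_le_one₀ hσ0.le (by linarith)
  have hRρ : R ≤ ρ / 16 := by
    rw [hR, div_le_div_iff₀ (by positivity) (by norm_num)]
    have : ρ * σ ^ 4 * 16 ≤ ρ * 1 * 16 := by gcongr
    nlinarith
  have hρσ : ρ ≤ σ ^ 6 := by nlinarith
  have hσ6 : σ ^ 6 ≤ σ ^ 4 / 16 := by
    have h1 : σ ^ 6 = σ ^ 4 * (σ * σ) := by ring
    have h2 : σ * σ ≤ 1 / 16 := by nlinarith
    rw [h1]
    have : 0 < σ ^ 4 := by positivity
    nlinarith
  have hσ46 : 0 < σ ^ 6 := by positivity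
  have hσ44 : 0 < σ ^ 4 := by positivity
  -- the function `h`
  have hdom : ∀ t w : ℂ, ‖t - x‖ < σ ^ 4 / 2 → ‖w‖ < R → |t.im| < y - 3 * ρ := by
    intro t w ht hw
    have h1 : |t.im| ≤ |x.im| + ‖t - x‖ := by
      have : t.im = x.im + (t - x).im := by simp
      rw [this]
      exact (abs_add_le _ _).trans (by gcongr; exact abs_im_le_norm _)
    linarith
  have hmem : ∀ t w : ℂ, ‖t - x‖ < σ ^ 4 / 2 → ‖w‖ < R → (t, w) ∈ Tb (y - ρ) ρ := by
    intro t w ht hw
    have := hdom t w ht hw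
    exact ⟨by linarith, by simp only; linarith⟩
  obtain ⟨T, hTd, hTx, hTe, hTu⟩ := solve (h := fun u => θ u - u.1) (x := x) (η := σ ^ 4 / 2)
    (δ := σ ^ 6 / 8) (R := R) (by positivity) (by positivity) (by linarith)
    (fun t w ht hw => (H.an _ (hmem t w ht hw)).differentiableAt.sub differentiableAt_fst)
    (by
      intro t w ht hw
      have hwR : ‖w‖ ≤ ρ / (CS * s) := by
        refine hw.le.trans ?_
        rw [hR, div_le_div_iff₀ (by positivity) (by positivity)]
        have h1 : ρ * σ ^ 4 * (CS * s) = ρ * CS * σ ^ 3 * (s * σ) := by ring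
        rw [h1, hsσ]
        have h2 : σ ^ 3 ≤ 1 := pow_le_one₀ hσ0.le (by linarith)
        have h3 : 0 < ρ * CS := by positivity
        nlinarith
      have h1 := (HS H hLo hρ hρ1 hy (by linarith) hls hys hC₁ t w (hdom t w ht hw) hwR).2
      refine h1.trans ?_
      have h2 : ‖w‖ / ρ ≤ σ ^ 4 / (16 * CS) := by
        rw [div_le_iff₀ hρ]
        calc ‖w‖ ≤ R := hw.le
          _ = _ := by rw [hR]; ring
      have h3 : CS * s ^ 2 * (‖w‖ / ρ) ^ 2 ≤ σ ^ 6 / 16 := by
        calc CS * s ^ 2 * (‖w‖ / ρ) ^ 2 ≤ CS * s ^ 2 * (σ ^ 4 / (16 * CS)) ^ 2 := by gcongr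
          _ = (s * σ) ^ 2 * σ ^ 6 / (256 * CS) := by field_simp; ring
          _ = σ ^ 6 / (256 * CS) := by rw [hsσ]; ring
          _ ≤ σ ^ 6 / 16 := by
              rw [div_le_div_iff₀ (by positivity) (by norm_num)]
              nlinarith
      have h4 : CS * C₁ * ‖w‖ ≤ σ ^ 6 / 16 := by
        calc CS * C₁ * ‖w‖ ≤ CS * C₁ * R := by gcongr
          _ = (C₁ * ρ) * σ ^ 4 / 16 := by rw [hR]; field_simp
          _ ≤ σ ^ 6 * σ ^ 4 / 16 := by gcongr
          _ ≤ σ ^ 6 / 16 := by nlinarith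
      linarith)
  by_cases hg : deriv F x = 0
  · rw [hg, norm_zero]; positivity
  -- properties of `T`
  have hTe' : ∀ w, ‖w‖ < R → θ (T w, w) = x := by
    intro w hw
    have := hTe w hw
    simp only at this
    linear_combination this
  have hTx' : ∀ w, ‖w‖ < R → ‖T w - x‖ < σ ^ 4 / 2 := by
    intro w hw
    have := hTx w hw
    linarith
  have hxim : |x.im| < y - ρ := by linarith
  have hT0 : T 0 = x := by
    symm
    refine hTu x 0 (by simpa using hR0) (by simp; positivity) ?_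
    simp only
    rw [H.z x hxim]; ring
  have hTev : ∀ w, ‖w‖ < R → T (-w) = T w := by
    intro w hw
    have hw' : ‖-w‖ < R := by rwa [norm_neg]
    refine hTu _ _ hw (by linarith [hTx _ hw']) ?_
    have h1 := hTe' _ hw'
    have h2 := H.ev (T (-w)) w (hmem _ _ (hTx' _ hw') hw)
    simp only
    rw [← h2, h1]; ring
  have h0R : ball (0 : ℂ) R ∈ 𝓝 (0 : ℂ) := ball_mem_nhds _ hR0
  have hT' : HasDerivAt T 0 0 := by
    have h1 : HasDerivAt T (deriv T 0) 0 :=
      ((hTd 0 (mem_ball_self hR0)).differentiableAt h0R).hasDerivAt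
    have h2 : HasDerivAt (fun w => T (-w)) (deriv T 0 * (-1)) 0 := by
      have h3 : HasDerivAt T (deriv T 0) (-(0 : ℂ)) := by rwa [neg_zero]
      exact h3.comp (0 : ℂ) (hasDerivAt_neg 0)
    have h3 : HasDerivAt (fun w => T (-w)) (deriv T 0) 0 := by
      refine h1.congr_of_eventuallyEq ?_
      filter_upwards [h0R] with w hw
      exact hTev w (by rwa [mem_ball_zero_iff] at hw)
    have h4 := h2.unique h3
    have h5 : deriv T 0 = 0 := by linear_combination (-1 / 2 : ℂ) * h4
    rwa [h5] at h1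
  -- points of the tube
  have hTb : ∀ w, ‖w‖ < R → (T w + w / 2, w) ∈ Tb y ρ ∧ (T w - w / 2, w) ∈ Tb y ρ := by
    intro w hw
    have h1 := hdom _ _ (hTx' w hw) hw
    obtain ⟨h2, h3⟩ := Vale.Agent.P097.H710.half_im (T w) w
    exact ⟨⟨by linarith, by simp only; linarith⟩, ⟨by linarith, by simp only; linarith⟩⟩
  set D : ℂ → ℂ := fun w => A (T w + w / 2, w) - F x with hDdef
  have hTd' : ∀ w, ‖w‖ < R → DifferentiableAt ℂ T w := by
    intro w hw
    have hw' : w ∈ ball (0 : ℂ) R := by rwa [mem_ball_zero_iff]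
    exact (hTd w hw').differentiableAt (isOpen_ball.mem_nhds hw')
  have hDd : DifferentiableOn ℂ D (ball 0 R) := by
    intro w hw
    rw [mem_ball_zero_iff] at hw
    have h1 : DifferentiableAt ℂ (fun w => ((T w + w / 2, w) : ℂ × ℂ)) w :=
      ((hTd' w hw).add (differentiableAt_id.div_const 2)).prodMk differentiableAt_id
    have h2 := (hA _ (hTb w hw).1).differentiableAt.comp
      (f := fun w => ((T w + w / 2, w) : ℂ × ℂ)) w h1
    exact (h2.sub_const (F x)).differentiableWithinAt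
  have hD0 : D 0 = 0 := by
    simp only [hDdef, hT0]
    rw [zero_div, add_zero, hA0 x (by linarith), sub_self]
  have hDs : ∀ w, ‖w‖ < R → sin (D w) = 0 → D w = 0 := by
    intro w hw hs'
    by_cases hw0 : w = 0
    · rw [hw0]; exact hD0
    exfalso
    have hm := hmem _ _ (hTx' w hw) hw
    have h1 := H.tg (T w) w hm hw0 (by rwa [hTe' w hw])
    have h2 := H.sA (T w) w hm
    rw [hTe' w hw] at h2
    refine h1 ?_
    have h3 : (A (T w + w / 2, w) - A (T w - w / 2, w)) / 2 = D w := by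
      simp only [hDdef]
      linear_combination (-1 / 2 : ℂ) * h2
    rw [h3]; exact hs'
  -- the derivative at `0`
  have hA1 : HasFDerivAt A (fderiv ℂ A (x, 0)) (x, 0) := by
    have : ((x, 0) : ℂ × ℂ) ∈ Tb y ρ := ⟨by simp only; linarith, by simpa using hρ⟩
    exact (hA _ this).differentiableAt.hasFDerivAt
  have hp : HasDerivAt (fun w => ((T w + w / 2, w) : ℂ × ℂ)) (1 / 2, 1) 0 := by
    have a1 : HasDerivAt (fun w : ℂ => T w + w / 2) (0 + 1 / 2) 0 :=
      hT'.add ((hasDerivAt_id (0 : ℂ)).div_const 2)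
    rw [zero_add] at a1
    exact a1.prodMk (hasDerivAt_id (0 : ℂ))
  have hm' : HasDerivAt (fun w => ((T w - w / 2, w) : ℂ × ℂ)) (-(1 / 2), 1) 0 := by
    have a1 : HasDerivAt (fun w : ℂ => T w - w / 2) (0 - 1 / 2) 0 :=
      hT'.sub ((hasDerivAt_id (0 : ℂ)).div_const 2)
    rw [zero_sub] at a1
    exact a1.prodMk (hasDerivAt_id (0 : ℂ))
  have hpA : HasDerivAt (fun w => A (T w + w / 2, w)) (fderiv ℂ A (x, 0) (1 / 2, 1)) 0 := by
    have h1 : HasFDerivAt A (fderiv ℂ A (x, 0)) ((fun w => ((T w + w / 2, w) : ℂ × ℂ)) 0) := by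
      simpa [hT0] using hA1
    exact HasFDerivAt.comp_hasDerivAt (f := fun w => ((T w + w / 2, w) : ℂ × ℂ)) (0 : ℂ) h1 hp
  have hmA : HasDerivAt (fun w => A (T w - w / 2, w)) (fderiv ℂ A (x, 0) (-(1 / 2), 1)) 0 := by
    have h1 : HasFDerivAt A (fderiv ℂ A (x, 0)) ((fun w => ((T w - w / 2, w) : ℂ × ℂ)) 0) := by
      simpa [hT0] using hA1
    exact HasFDerivAt.comp_hasDerivAt (f := fun w => ((T w - w / 2, w) : ℂ × ℂ)) (0 : ℂ) h1 hm'
  have hsum : fderiv ℂ A (x, 0) (1 / 2, 1) + fderiv ℂ A (x, 0) (-(1 / 2), 1) = 0 := by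
    have h1 := hpA.add hmA
    have h2 : HasDerivAt (fun w => A (T w + w / 2, w) + A (T w - w / 2, w)) 0 0 := by
      refine (hasDerivAt_const (0 : ℂ) (2 * F x)).congr_of_eventuallyEq ?_
      filter_upwards [h0R] with w hw
      rw [mem_ball_zero_iff] at hw
      have h3 := H.sA (T w) w (hmem _ _ (hTx' w hw) hw)
      rw [hTe' w hw] at h3
      exact h3
    exact h1.unique h2
  have hAt : fderiv ℂ A (x, 0) (1, 0) = deriv F x := by
    have h1 : HasDerivAt (fun t : ℂ => A (t, 0)) (fderiv ℂ A (x, 0) (1, 0)) x := by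
      have h2 : HasDerivAt (fun t : ℂ => ((t, 0) : ℂ × ℂ)) (1, 0) x :=
        (hasDerivAt_id x).prodMk (hasDerivAt_const x 0)
      exact hA1.comp_hasDerivAt x h2
    have h3 : HasDerivAt (fun t : ℂ => A (t, 0)) (deriv F x) x := by
      refine hF.differentiableAt.hasDerivAt.congr_of_eventuallyEq ?_
      have h4 : {t : ℂ | |t.im| < y} ∈ 𝓝 x := by
        refine IsOpen.mem_nhds ?_ (show |x.im| < y by linarith)
        exact isOpen_lt (continuous_abs.comp Complex.continuous_im) continuous_const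
      filter_upwards [h4] with t ht
      exact hA0 t ht
    exact h1.unique h3
  have hder : fderiv ℂ A (x, 0) (1 / 2, 1) = deriv F x / 2 := by
    have e1 : ((1 / 2, 1) : ℂ × ℂ) = (1 / 2 : ℂ) • ((1, 0) : ℂ × ℂ) + (0, 1) := by
      ext <;> simp
    have e2 : ((-(1 / 2), 1) : ℂ × ℂ) = (-(1 / 2) : ℂ) • ((1, 0) : ℂ × ℂ) + (0, 1) := by
      ext <;> simp
    rw [e1, e2] at hsum
    rw [e1]
    simp only [map_add, map_smul, hAt, smul_eq_mul] at hsum ⊢
    linear_combination (1 / 2 : ℂ) * hsum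
  have hDder : HasDerivAt D (deriv F x / 2) 0 := by
    have := hpA.sub_const (F x)
    rw [hder] at this
    exact this
  have key := landau hR0 hDd hD0 hDs hDder
  rw [norm_div] at key
  have h2 : ‖(2 : ℂ)‖ = 2 := by simp
  rw [h2, div_le_iff₀ (by norm_num)] at key
  refine key.trans ?_
  have hσs : σ ^ 4 * s ^ 4 = 1 := by
    have : σ ^ 4 * s ^ 4 = (s * σ) ^ 4 := by ring
    rw [this, hsσ, one_pow]
  have e3 : 2 * Real.pi * C1 / R * 2 = 64 * Real.pi * C1 * CS * s ^ 4 / ρ := by
    rw [hR]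
    field_simp
    linear_combination (-64 : ℝ) * hσs
  rw [e3]
  gcongr
  linarith

end Vale.Agent.P097.H967.RowL
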