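import Vale.Agent.P097.H690.LD.LogDer

/-! P097, case [d], row D2, parts (2a) and (2b): `g` entire, 1-periodic, positive on the real
axis, `g'' = Q g` with `Q` entire. -/

namespace Vale.Agent.P097.H967.D2

open Complex Metric Set Filter MeasureTheory

/-- contour shift for entire 1-periodic functions -/
theorem shift {f : ℂ → ℂ} (hf : Differentiable ℂ f) (hp : ∀ z, f (z + 1) = f z) (y : ℝ) :
    ∫ x in (0 : ℝ)..1, f (x + y * I) = ∫ x in (0 : ℝ)..1, f x := by
  have h := Complex.integral_boundary_rect_eq_zero_of_differentiableOn f 0 (1 + y * I)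
    (hf.differentiableOn)
  have e1 : ∀ t : ℝ, f (((1 + y * I : ℂ).re : ℂ) + t * I) = f ((((0 : ℂ).re : ℝ) : ℂ) + t * I) := by
    intro t
    have := hp (t * I)
    simp only [add_re, one_re, mul_re, ofReal_re, I_re, mul_zero, ofReal_im, I_im, mul_one,
      sub_self, add_zero, ofReal_one, zero_re, ofReal_zero, zero_add]
    rw [← this]; ring_nf
  simp only [e1, add_sub_cancel_right] at h
  simp at h
  have h2 := sub_eq_zero.1 h
  simpa using h2.symm

section
variable {g : ℂ → ℂ} {l : ℝ}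

/-- some point of every horizontal line has large product of translates -/
theorem exists_prod (hg : Differentiable ℂ g) (hp : ∀ z, g (z + 1) = g z)
    (hr : ∀ x : ℝ, (g x).im = 0 ∧ Real.exp (-l) ≤ (g x).re) (N : ℕ) (y : ℝ) :
    ∃ x ∈ Icc (0 : ℝ) 1, Real.exp (-l * N) ≤
      ∏ k ∈ Finset.range N, ‖g (x + y * I + (k : ℂ) / N)‖ := by
  set P : ℂ → ℂ := fun z => ∏ k ∈ Finset.range N, g (z + (k : ℂ) / N) with hP
  have hPd : Differentiable ℂ P := by
    have : ∀ k ∈ Finset.range N, Differentiable ℂ (fun z => g (z + (k : ℂ) / N)) := fun k _ =>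
      hg.comp (by fun_prop)
    exact Differentiable.fun_finsetProd this
  have hPp : ∀ z, P (z + 1) = P z := by
    intro z
    simp only [hP]
    refine Finset.prod_congr rfl fun k _ => ?_
    rw [← hp (z + (k : ℂ) / N)]; ring_nf
  set p : ℝ → ℝ := fun x => ∏ k ∈ Finset.range N, (g ((x + (k : ℝ) / N : ℝ) : ℂ)).re with hpd
  have hPx : ∀ x : ℝ, P x = ((p x : ℝ) : ℂ) := by
    intro x
    simp only [hP, hpd]
    rw [Complex.ofReal_prod]
    refine Finset.prod_congr rfl fun k _ => ?_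
    have h1 := (hr (x + (k : ℝ) / N)).1
    apply Complex.ext
    · simp
    · simpa using h1
  have hpl : ∀ x : ℝ, Real.exp (-l * N) ≤ p x := by
    intro x
    have : Real.exp (-l * N) = ∏ k ∈ Finset.range N, Real.exp (-l) := by
      rw [Finset.prod_const, Finset.card_range, ← Real.exp_nat_mul]; ring_nf
    rw [this]
    exact Finset.prod_le_prod (fun _ _ => (Real.exp_pos _).le) fun k _ => (hr _).2
  have hsh := shift hPd hPp y
  have hpc : Continuous p := by
    have h1 : Continuous fun x : ℝ => (P x).re := by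
      have := hPd.continuous
      fun_prop
    have h2 : (fun x : ℝ => (P x).re) = p := by
      funext x; rw [hPx]; simp
    rwa [h2] at h1
  have hlow : Real.exp (-l * N) ≤ ‖∫ x in (0 : ℝ)..1, P (x + y * I)‖ := by
    rw [hsh]
    have e : ∫ x in (0 : ℝ)..1, P x = ((∫ x in (0 : ℝ)..1, p x : ℝ) : ℂ) := by
      rw [← intervalIntegral.integral_ofReal]
      exact intervalIntegral.integral_congr fun x _ => hPx x
    rw [e, Complex.norm_real, Real.norm_eq_abs]
    refine le_trans ?_ (le_abs_self _)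
    have h1 : ∫ _ in (0 : ℝ)..1, Real.exp (-l * N) ≤ ∫ x in (0 : ℝ)..1, p x :=
      intervalIntegral.integral_mono_on (by norm_num) (by simp) (hpc.intervalIntegrable _ _)
        fun x _ => hpl x
    simpa using h1
  have hcont : Continuous fun x : ℝ => ‖P (x + y * I)‖ := by
    have := hPd.continuous
    fun_prop
  obtain ⟨x, hx, hmax⟩ := isCompact_Icc.exists_isMaxOn (nonempty_Icc.2 zero_le_one)
    hcont.continuousOn
  refine ⟨x, hx, ?_⟩
  have h2 : ‖∫ x in (0 : ℝ)..1, P (x + y * I)‖ ≤ ‖P (x + y * I)‖ * |1 - 0| := by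
    refine intervalIntegral.norm_integral_le_of_norm_le_const fun t ht => ?_
    rw [uIoc_of_le zero_le_one] at ht
    exact hmax ⟨ht.1.le, ht.2⟩
  have h3 : ‖P (x + y * I)‖ = ∏ k ∈ Finset.range N, ‖g (x + y * I + (k : ℂ) / N)‖ := by
    simp only [hP]; rw [norm_prod]
  rw [← h3]
  refine hlow.trans (h2.trans (le_of_eq ?_))
  simp

theorem per_int (hp : ∀ z, g (z + 1) = g z) (n : ℤ) (z : ℂ) : g (z + n) = g z := by
  have hp' : Function.Periodic g 1 := hp
  have := hp'.int_mul n z
  simpa using this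

/-- every short interval of every horizontal line contains a point where `g` is not too small -/
theorem exists_low (hg : Differentiable ℂ g) (hp : ∀ z, g (z + 1) = g z)
    (hr : ∀ x : ℝ, (g x).im = 0 ∧ Real.exp (-l) ≤ (g x).re) {A y : ℝ} (hA : 0 ≤ A)
    (hb : ∀ x : ℝ, ‖g (x + y * I)‖ ≤ Real.exp A) {N : ℕ} (hN : 0 < N) (x₀ : ℝ) :
    ∃ x : ℝ, x₀ ≤ x ∧ x ≤ x₀ + 1 / N ∧ Real.exp (-((A + l) * N)) ≤ ‖g (x + y * I)‖ := by
  by_contra hno
  push Not at hno
  obtain ⟨x, -, hx⟩ := exists_prod hg hp hr N y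
  have hN' : (0 : ℝ) < N := by exact_mod_cast hN
  set j : ℤ := ⌈(N : ℝ) * (x₀ - x)⌉ with hj
  have hNz : (N : ℤ) ≠ 0 := by exact_mod_cast hN.ne'
  set k : ℕ := (j % N).toNat with hk
  have hk1 : ((k : ℕ) : ℤ) = j % N := Int.toNat_of_nonneg (Int.emod_nonneg _ hNz)
  have hk2 : k < N := by
    have := Int.emod_lt_of_pos j (by exact_mod_cast hN : (0 : ℤ) < N)
    omega
  have hjk : j = k + N * (j / N) := by
    rw [hk1]; exact (Int.emod_add_mul_ediv j N).symm
  have hjR : (j : ℝ) = k + N * ((j / N : ℤ) : ℝ) := by exact_mod_cast congrArg (Int.cast (R := ℝ)) hjk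
  set t : ℝ := x + j / N with ht
  have ht1 : x₀ ≤ t := by
    have h1 := Int.le_ceil ((N : ℝ) * (x₀ - x))
    rw [← hj] at h1
    rw [ht]
    have : x₀ - x ≤ j / N := by rw [le_div_iff₀ hN']; linarith
    linarith
  have ht2 : t ≤ x₀ + 1 / N := by
    have h1 := (Int.ceil_lt_add_one ((N : ℝ) * (x₀ - x))).le
    rw [← hj] at h1
    rw [ht]
    have : j / N ≤ x₀ - x + 1 / N := by
      rw [div_le_iff₀ hN', add_mul]; field_simp; linarith
    linarith
  have hgk : g (x + y * I + (k : ℂ) / N) = g (t + y * I) := by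
    have e : ((t : ℝ) : ℂ) + y * I = (x + y * I + (k : ℂ) / N) + ((j / N : ℤ) : ℂ) := by
      rw [ht]
      push_cast
      have hNc : (N : ℂ) ≠ 0 := by exact_mod_cast hN.ne'
      have hjC : (j : ℂ) = k + N * ((j / N : ℤ) : ℂ) := by exact_mod_cast congrArg (Int.cast (R := ℂ)) hjk
      rw [hjC]; field_simp; ring
    rw [e, per_int hp]
  have hlt := hno t ht1 ht2
  rw [← hgk] at hlt
  have hkm : k ∈ Finset.range N := Finset.mem_range.2 hk2
  rw [← Finset.mul_prod_erase _ _ hkm] at hx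
  have hrest : ∏ i ∈ (Finset.range N).erase k, ‖g (x + y * I + (i : ℂ) / N)‖ ≤
      Real.exp (A * N) * Real.exp (-A) := by
    have h1 : ∏ i ∈ (Finset.range N).erase k, ‖g (x + y * I + (i : ℂ) / N)‖ ≤
        ∏ i ∈ (Finset.range N).erase k, Real.exp A := by
      refine Finset.prod_le_prod (fun _ _ => norm_nonneg _) fun i _ => ?_
      have := hb (x + i / N)
      refine le_trans (le_of_eq ?_) this
      congr 2
      push_cast; ring
    refine h1.trans (le_of_eq ?_)
    rw [Finset.prod_const, Finset.card_erase_of_mem hkm, Finset.card_range, ← Real.exp_nat_mul,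
      ← Real.exp_add]
    congr 1
    rw [Nat.cast_sub hN]; push_cast; ring
  have h5 : ‖g (x + y * I + (k : ℂ) / N)‖ *
      ∏ i ∈ (Finset.range N).erase k, ‖g (x + y * I + (i : ℂ) / N)‖ ≤
      ‖g (x + y * I + (k : ℂ) / N)‖ * (Real.exp (A * N) * Real.exp (-A)) := by gcongr
  have h6 : ‖g (x + y * I + (k : ℂ) / N)‖ * (Real.exp (A * N) * Real.exp (-A)) <
      Real.exp (-((A + l) * N)) * (Real.exp (A * N) * Real.exp (-A)) := by
    have : 0 < Real.exp (A * N) * Real.exp (-A) := by positivity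
    gcongr
  have h7 : Real.exp (-((A + l) * N)) * (Real.exp (A * N) * Real.exp (-A)) ≤ Real.exp (-l * N) := by
    rw [← Real.exp_add, ← Real.exp_add]
    apply Real.exp_le_exp.2
    linarith
  linarith

/-- (2a): bound of `Q` in a strip -/
theorem Q_bound {Q : ℂ → ℂ} (hg : Differentiable ℂ g) (hQ : Differentiable ℂ Q)
    (hgQ : ∀ z, deriv (deriv g) z = Q z * g z) (hp : ∀ z, g (z + 1) = g z)
    (hr : ∀ x : ℝ, (g x).im = 0 ∧ Real.exp (-l) ≤ (g x).re) (hl : 0 ≤ l) {A Y R : ℝ} (hA : 0 ≤ A)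
    (hR : 0 < R) (hR1 : R ≤ 1) (hb : ∀ z : ℂ, |z.im| ≤ Y → ‖g z‖ ≤ Real.exp A)
    {z : ℂ} (hz : |z.im| ≤ Y - R) : ‖Q z‖ ≤ 3 * 10 ^ 10 * (A + l + 1) ^ 4 / R ^ 6 := by
  set N : ℕ := ⌈16 / R⌉₊ with hN
  have hN1 : 16 / R ≤ (N : ℝ) := Nat.le_ceil _
  have hN2 : (N : ℝ) < 16 / R + 1 := Nat.ceil_lt_add_one (by positivity)
  have hNpos : (0 : ℝ) < N := lt_of_lt_of_le (by positivity) hN1
  have hN0 : 0 < N := by exact_mod_cast hNpos
  have hNR : 1 / (N : ℝ) ≤ R / 16 := by
    rw [div_le_div_iff₀ hNpos (by norm_num)]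
    rw [div_le_iff₀ hR] at hN1
    linarith
  have hN3 : (N : ℝ) + 1 ≤ 18 / R := by
    have : 1 ≤ 1 / R := by rw [le_div_iff₀ hR]; linarith
    have e : 18 / R = 16 / R + 1 / R + 1 / R := by ring
    linarith
  obtain ⟨x, hx1, hx2, hx3⟩ := exists_low hg hp hr hA (y := z.im)
    (fun x => hb _ (by simp; linarith)) hN0 z.re
  set c : ℂ := x + z.im * I with hc
  have hcim : c.im = z.im := by simp [hc]
  have hgc : 0 < ‖g c‖ := lt_of_lt_of_le (Real.exp_pos _) hx3
  have hgc0 : g c ≠ 0 := norm_pos_iff.1 hgc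
  set f : ℂ → ℂ := fun w => (g c)⁻¹ * g w with hf
  have hd1 : deriv f = fun w => (g c)⁻¹ * deriv g w := by
    funext w
    simp only [hf]
    rw [deriv_const_mul _ (hg w)]
  have hd2 : ∀ w, deriv (deriv f) w = (g c)⁻¹ * deriv (deriv g) w := by
    intro w
    rw [hd1, deriv_const_mul]
    exact (hg.deriv) w
  set D : ℝ := A + (A + l) * N with hDdef
  have hD0 : 0 ≤ D := by positivity
  have key := H690.LD.logder_quot (f := f) (F := Q) (c := c) (β := 0) (R := R) (D := D) hR hD0
    ((hg.const_mul _).differentiableOn) hQ.differentiableOn (by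
      intro w hw
      rw [mem_ball, dist_eq_norm] at hw
      have h1 : |w.im| ≤ Y := by
        have h2 : |w.im - c.im| ≤ ‖w - c‖ := by simpa using Complex.abs_im_le_norm (w - c)
        rw [hcim] at h2
        have h3 : |w.im| ≤ |w.im - z.im| + |z.im| := by simpa using abs_add_le (w.im - z.im) z.im
        linarith
      simp only [hf, norm_mul, norm_inv]
      have h4 : ‖g c‖⁻¹ ≤ Real.exp ((A + l) * N) := by
        rw [inv_le_comm₀ hgc (Real.exp_pos _), ← Real.exp_neg]
        exact hx3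
      calc ‖g c‖⁻¹ * ‖g w‖ ≤ Real.exp ((A + l) * N) * Real.exp A := by
            gcongr; exact hb w h1
        _ = Real.exp D := by rw [← Real.exp_add, hDdef]; ring_nf)
    (by simp [hf, hgc0]) (by
      intro w _
      rw [hd2, hgQ]; simp only [hf]; ring) z (by
      rw [mem_closedBall, dist_eq_norm]
      have e : z - c = ((z.re - x : ℝ) : ℂ) := by
        apply Complex.ext <;> simp [hc]
      rw [e, Complex.norm_real, Real.norm_eq_abs, abs_le]
      constructor <;> linarith)
  refine key.trans ?_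
  simp only [norm_zero, zero_mul, add_zero]
  have h1 : D + 1 ≤ (A + l + 1) * (18 / R) := by
    have h2 : D + 1 ≤ (A + l + 1) * ((N : ℝ) + 1) := by rw [hDdef]; nlinarith
    refine h2.trans ?_
    have : 0 ≤ A + l + 1 := by linarith
    gcongr
  have h3 : (D + 1) ^ 4 ≤ ((A + l + 1) * (18 / R)) ^ 4 := by
    have : 0 ≤ D + 1 := by linarith
    gcongr
  calc 200000 * (D + 1) ^ 4 / R ^ 2 ≤ 200000 * ((A + l + 1) * (18 / R)) ^ 4 / R ^ 2 := by gcongr
    _ = 20995200000 * (A + l + 1) ^ 4 / R ^ 6 := by field_simp; ring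
    _ ≤ 3 * 10 ^ 10 * (A + l + 1) ^ 4 / R ^ 6 := by
      have : 0 ≤ (A + l + 1) ^ 4 := by positivity
      gcongr
      norm_num

/-- the mean of `Q = g'' / g` over the real period is nonnegative -/
theorem mean_nonneg {Q : ℂ → ℂ} (hg : Differentiable ℂ g) (hQ : Differentiable ℂ Q)
    (hgQ : ∀ z, deriv (deriv g) z = Q z * g z) (hp : ∀ z, g (z + 1) = g z)
    (hr : ∀ x : ℝ, (g x).im = 0 ∧ Real.exp (-l) ≤ (g x).re) :
    0 ≤ (∫ x in (0 : ℝ)..1, Q x).re := by
  have hne : ∀ x : ℝ, g x ≠ 0 := by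
    intro x h
    have := (hr x).2
    rw [h, zero_re] at this
    exact absurd this (not_le.2 (Real.exp_pos _))
  have hpd : ∀ z, deriv g (z + 1) = deriv g z := by
    intro z
    have : (fun w => g (w + 1)) = g := funext hp
    rw [← deriv_comp_add_const, this]
  set ψ : ℝ → ℂ := fun x => deriv g x / g x with hψ
  have hdψ : ∀ x : ℝ, HasDerivAt ψ (Q x - ψ x ^ 2) x := by
    intro x
    have h1 := ((hg.deriv x).hasDerivAt.div (hg x).hasDerivAt (hne x)).comp_ofReal
    refine h1.congr_deriv ?_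
    rw [hgQ]
    have := hne x
    simp only [hψ]
    field_simp
  have hcQ : Continuous fun x : ℝ => Q x := by
    have := hQ.continuous
    fun_prop
  have hcψ : Continuous ψ := by
    have h1 := hg.continuous
    have h2 := hg.deriv.continuous
    exact Continuous.div (by fun_prop) (by fun_prop) hne
  have h0 : ∫ x in (0 : ℝ)..1, (Q x - ψ x ^ 2) = ψ 1 - ψ 0 :=
    intervalIntegral.integral_eq_sub_of_hasDerivAt (fun x _ => hdψ x)
      ((hcQ.sub (hcψ.pow 2)).intervalIntegrable _ _)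
  have h1 : ψ 1 - ψ 0 = 0 := by
    simp only [hψ, ofReal_one, ofReal_zero]
    rw [← zero_add (1 : ℂ), hp, hpd, sub_self]
  have hi2 : IntervalIntegrable (fun x => ψ x ^ 2) volume 0 1 :=
    (hcψ.pow 2).intervalIntegrable _ _
  rw [h1, intervalIntegral.integral_sub (hcQ.intervalIntegrable _ _) hi2, sub_eq_zero] at h0
  -- ψ is real
  have himg : ∀ x : ℝ, (deriv g x).im = 0 := by
    intro x
    have h2 : HasDerivAt (fun y : ℝ => g y) (deriv g x) x := (hg x).hasDerivAt.comp_ofReal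
    have h3 := Complex.imCLM.hasFDerivAt.comp_hasDerivAt x h2
    have h4 : (⇑imCLM ∘ fun y : ℝ => g y) = fun _ => (0 : ℝ) := by
      funext y; simp [(hr y).1]
    rw [h4] at h3
    have h5 := h3.unique (hasDerivAt_const x (0 : ℝ))
    simpa using h5
  have hψr : ∀ x : ℝ, ψ x = ((((deriv g x).re / (g x).re) : ℝ) : ℂ) := by
    intro x
    have e1 : deriv g x = (((deriv g x).re : ℝ) : ℂ) := Complex.ext (by simp) (by simp [himg x])
    have e2 : g x = (((g x).re : ℝ) : ℂ) := Complex.ext (by simp) (by simp [(hr x).1])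
    simp only [hψ]
    rw [Complex.ofReal_div, ← e1, ← e2]
  have h6 : ∫ x in (0 : ℝ)..1, ψ x ^ 2 =
      ((∫ x in (0 : ℝ)..1, ((deriv g x).re / (g x).re) ^ 2 : ℝ) : ℂ) := by
    rw [← intervalIntegral.integral_ofReal]
    refine intervalIntegral.integral_congr fun x _ => ?_
    simp only [hψr x]
    push_cast
    ring
  rw [h0, h6, Complex.ofReal_re]
  exact intervalIntegral.integral_nonneg zero_le_one fun x _ => sq_nonneg _

/-- (2b), one centre: if `g` is not small somewhere in the box, `D² Q + 1` is small -/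
theorem Q_near {Q : ℂ → ℂ} (hg : Differentiable ℂ g) (hQ : Differentiable ℂ Q)
    (hgQ : ∀ z, deriv (deriv g) z = Q z * g z) {y D r B ε K K₁ : ℝ} (hD : 0 < D) (hr0 : 0 < r)
    (hε : 0 < ε) (hεB : ε ≤ B) (hK₁ : 0 ≤ K₁) (hK : 0 < K) (hKK : 17 * K₁ ≤ K)
    (hb : ∀ z : ℂ, |z.im - y| ≤ K * D → ‖g z‖ ≤ B / r * Real.exp ((z.im - y) / D))
    {x₀ : ℝ} {s : ℂ} (hs : ‖s - (x₀ + y * I)‖ ≤ K₁ * D) (hgs : ε ≤ ‖g s‖ * r) :
    ‖(D : ℂ) ^ 2 * Q (x₀ + y * I) + 1‖ ≤
      200000 * (Real.log (B / ε) + K₁ + 1) ^ 4 / (K - K₁) ^ 2 +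
        600 * (Real.log (B / ε) + K₁ + 1) ^ 2 / (K - K₁) := by
  have hB : 0 < B := hε.trans_le hεB
  have hgs0 : 0 < ‖g s‖ := by
    by_contra h
    have h1 : ‖g s‖ ≤ 0 := not_lt.1 h
    nlinarith
  have hgs1 : g s ≠ 0 := norm_pos_iff.1 hgs0
  have hDc : (D : ℂ) ≠ 0 := by exact_mod_cast hD.ne'
  have hR : 0 < K - K₁ := by linarith
  set M : ℝ := Real.log (B / ε) + K₁ with hM
  have hM0 : 0 ≤ M := by
    have : 0 ≤ Real.log (B / ε) := Real.log_nonneg (by rwa [one_le_div hε])
    linarith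
  set f : ℂ → ℂ := fun T => (g s)⁻¹ * (g (s + D * T) * Complex.exp (I * T)) with hf
  have hgd : ∀ T : ℂ, HasDerivAt (fun T => g (s + D * T)) (deriv g (s + D * T) * D) T := by
    intro T
    have h1 : HasDerivAt (fun T : ℂ => s + D * T) (D : ℂ) T := by
      simpa using ((hasDerivAt_id T).const_mul (D : ℂ)).const_add s
    exact (hg (s + D * T)).hasDerivAt.comp T h1
  have hgd2 : ∀ T : ℂ, HasDerivAt (fun T => deriv g (s + D * T))
      (deriv (deriv g) (s + D * T) * D) T := by
    intro T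
    have h1 : HasDerivAt (fun T : ℂ => s + D * T) (D : ℂ) T := by
      simpa using ((hasDerivAt_id T).const_mul (D : ℂ)).const_add s
    exact (hg.deriv (s + D * T)).hasDerivAt.comp T h1
  have hed : ∀ T : ℂ, HasDerivAt (fun T : ℂ => Complex.exp (I * T)) (Complex.exp (I * T) * I) T := by
    intro T
    have h1 : HasDerivAt (fun T : ℂ => I * T) I T := by
      simpa using (hasDerivAt_id T).const_mul I
    exact h1.cexp
  have hfd : ∀ T : ℂ, HasDerivAt f ((g s)⁻¹ * ((deriv g (s + D * T) * D) * Complex.exp (I * T) +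
      g (s + D * T) * (Complex.exp (I * T) * I))) T := fun T =>
    ((hgd T).mul (hed T)).const_mul _
  have hf1 : deriv f = fun T => (g s)⁻¹ * ((deriv g (s + D * T) * D) * Complex.exp (I * T) +
      g (s + D * T) * (Complex.exp (I * T) * I)) := funext fun T => (hfd T).deriv
  have hf2 : ∀ T, deriv (deriv f) T = (g s)⁻¹ * ((deriv (deriv g) (s + D * T) * D * D) *
      Complex.exp (I * T) + deriv g (s + D * T) * D * (Complex.exp (I * T) * I) +
      (deriv g (s + D * T) * D * (Complex.exp (I * T) * I) +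
        g (s + D * T) * (Complex.exp (I * T) * I * I))) := by
    intro T
    rw [hf1]
    exact (((((hgd2 T).mul_const (D : ℂ)).mul (hed T)).add
      ((hgd T).mul ((hed T).mul_const I))).const_mul _).deriv
  have hfdiff : Differentiable ℂ f := fun T => (hfd T).differentiableAt
  set F : ℂ → ℂ := fun T => (D : ℂ) ^ 2 * Q (s + D * T) + 1 with hF
  have hFdiff : Differentiable ℂ F := by
    have : Differentiable ℂ fun T : ℂ => Q (s + D * T) := hQ.comp (by fun_prop)
    exact ((this.const_mul _).add_const _)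
  set T₁ : ℂ := (x₀ + y * I - s) / D with hT₁
  have hT₁n : ‖T₁‖ ≤ (K - K₁) / 16 := by
    rw [hT₁, norm_div, Complex.norm_real, Real.norm_eq_abs, abs_of_pos hD, div_le_iff₀ hD,
      norm_sub_rev]
    refine hs.trans ?_
    have : K₁ ≤ (K - K₁) / 16 := by linarith
    gcongr
  have key := H690.LD.logder_quot (f := f) (F := F) (c := 0) (β := -(2 * I)) (R := K - K₁)
    (D := M) hR hM0 hfdiff.differentiableOn hFdiff.differentiableOn (by
      intro T hT
      rw [mem_ball, dist_zero_right] at hT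
      have hTi : |T.im| ≤ ‖T‖ := Complex.abs_im_le_norm T
      have hsi : |s.im - y| ≤ K₁ * D := by
        have := Complex.abs_im_le_norm (s - (x₀ + y * I))
        have e : (s - (x₀ + y * I)).im = s.im - y := by simp
        rw [e] at this
        exact this.trans hs
      have him : (s + D * T).im - y = (s.im - y) + D * T.im := by simp; ring
      have h1 : |(s + D * T).im - y| ≤ K * D := by
        rw [him]
        refine (abs_add_le _ _).trans ?_
        rw [abs_mul, abs_of_pos hD]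
        nlinarith
      have h2 := hb _ h1
      have h3 : ‖Complex.exp (I * T)‖ = Real.exp (-T.im) := by
        rw [Complex.norm_exp]; simp
      have h4 : ‖(g s)⁻¹‖ ≤ r / ε := by
        rw [norm_inv, inv_le_comm₀ hgs0 (by positivity), inv_div, div_le_iff₀ hr0]
        exact hgs
      simp only [hf, norm_mul]
      rw [h3]
      calc ‖(g s)⁻¹‖ * (‖g (s + D * T)‖ * Real.exp (-T.im))
          ≤ r / ε * (B / r * Real.exp (((s + D * T).im - y) / D) * Real.exp (-T.im)) := by gcongr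
        _ = B / ε * Real.exp ((s.im - y) / D) := by
          rw [him]
          have : Real.exp ((s.im - y + D * T.im) / D) = Real.exp ((s.im - y) / D) *
              Real.exp T.im := by
            rw [← Real.exp_add]; congr 1; field_simp
          rw [this, mul_assoc (B / r), mul_assoc (Real.exp ((s.im - y) / D)), ← Real.exp_add]
          simp
          field_simp
        _ ≤ B / ε * Real.exp K₁ := by
          have h5 : (s.im - y) / D ≤ K₁ := by
            rw [div_le_iff₀ hD]; exact (le_abs_self _).trans hsi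
          gcongr
        _ = Real.exp M := by
          rw [hM, Real.exp_add, Real.exp_log (by positivity)])
    (by simp [hf, hgs1]) (by
      intro T _
      rw [hf2, hf1, hgQ]
      simp only [hf, hF]
      ring_nf
      simp only [I_sq]
      ring) T₁ (by rw [mem_closedBall, dist_zero_right]; exact hT₁n)
  have e1 : F T₁ = (D : ℂ) ^ 2 * Q (x₀ + y * I) + 1 := by
    simp only [hF, hT₁]
    congr 3
    field_simp
    ring
  rw [e1] at key
  refine key.trans (le_of_eq ?_)
  simp
  ring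

/-- (2b), the place: at some place of the line `Im = y` the function `g` is small on a large box -/
theorem place {Q : ℂ → ℂ} (hg : Differentiable ℂ g) (hQ : Differentiable ℂ Q)
    (hgQ : ∀ z, deriv (deriv g) z = Q z * g z) (hp : ∀ z, g (z + 1) = g z)
    (hQp : ∀ z, Q (z + 1) = Q z)
    (hr : ∀ x : ℝ, (g x).im = 0 ∧ Real.exp (-l) ≤ (g x).re)
    {y D r B ε K K₁ : ℝ} (hD : 0 < D) (hr0 : 0 < r)
    (hε : 0 < ε) (hεB : ε ≤ B) (hK₁ : 0 ≤ K₁) (hK : 0 < K) (hKK : 17 * K₁ ≤ K)
    (hb : ∀ z : ℂ, |z.im - y| ≤ K * D → ‖g z‖ ≤ B / r * Real.exp ((z.im - y) / D))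
    (hδ : 200000 * (Real.log (B / ε) + K₁ + 1) ^ 4 / (K - K₁) ^ 2 +
        600 * (Real.log (B / ε) + K₁ + 1) ^ 2 / (K - K₁) < 1) :
    ∃ x₀ : ℝ, ∀ z : ℂ, ‖z - (x₀ + y * I)‖ ≤ K₁ * D → ‖g z‖ * r < ε := by
  by_contra hno
  push Not at hno
  set δ : ℝ := 200000 * (Real.log (B / ε) + K₁ + 1) ^ 4 / (K - K₁) ^ 2 +
        600 * (Real.log (B / ε) + K₁ + 1) ^ 2 / (K - K₁) with hδd
  have hall : ∀ x : ℝ, ‖(D : ℂ) ^ 2 * Q (x + y * I) + 1‖ ≤ δ := by
    intro x
    obtain ⟨s, hs, hgs⟩ := hno x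
    exact Q_near hg hQ hgQ hD hr0 hε hεB hK₁ hK hKK hb hs hgs
  have hcQ : Continuous fun x : ℝ => Q (x + y * I) := by
    have := hQ.continuous
    fun_prop
  have h1 : ‖∫ x in (0 : ℝ)..1, ((D : ℂ) ^ 2 * Q (x + y * I) + 1)‖ ≤ δ * |1 - 0| :=
    intervalIntegral.norm_integral_le_of_norm_le_const fun x _ => hall x
  rw [intervalIntegral.integral_add ((hcQ.const_mul _).intervalIntegrable _ _) (by simp),
    intervalIntegral.integral_const_mul, shift hQ hQp y] at h1
  simp only [intervalIntegral.integral_const, sub_zero, one_smul, abs_one, mul_one] at h1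
  have h2 := mean_nonneg hg hQ hgQ hp hr
  have h3 : ((D : ℂ) ^ 2 * (∫ x in (0 : ℝ)..1, Q x) + 1).re =
      D ^ 2 * (∫ x in (0 : ℝ)..1, Q x).re + 1 := by
    rw [add_re, one_re]
    congr 1
    have : (D : ℂ) ^ 2 = ((D ^ 2 : ℝ) : ℂ) := by push_cast; ring
    rw [this, re_ofReal_mul]
  have h4 := (Complex.re_le_norm _).trans h1
  rw [h3] at h4
  have h5 : 0 ≤ D ^ 2 * (∫ x in (0 : ℝ)..1, Q x).re := by positivity
  linarith

end

end Vale.Agent.P097.H967.D2
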