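import Mathlib

/-! P097, case [d], row (iii): bound of `g` from `g'' = (E - g² / 8) g`. -/

namespace Vale.Agent.P097.H967.D1max

open Complex Metric Set

theorem sq_le_closed {g E : ℂ → ℂ} {z₀ : ℂ} {ρ M : ℝ} (hρ : 0 < ρ)
    (hg : DifferentiableOn ℂ g (ball z₀ ρ)) (hgc : ContinuousOn g (closedBall z₀ ρ))
    (hgE : ∀ z ∈ ball z₀ ρ, deriv (deriv g) z = (E z - g z ^ 2 / 8) * g z)
    (hE : ∀ z ∈ ball z₀ ρ, ‖E z‖ ≤ M) : ‖g z₀‖ ^ 2 ≤ 8 * M + 128 / ρ ^ 2 := by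
  have hM : 0 ≤ M := (norm_nonneg _).trans (hE z₀ (mem_ball_self hρ))
  set φ : ℂ → ℝ := fun z => ‖g z‖ * (ρ - ‖z - z₀‖) with hφ
  have hφc : ContinuousOn φ (closedBall z₀ ρ) := by
    apply ContinuousOn.mul hgc.norm
    fun_prop
  obtain ⟨z₁, hz₁, hmax⟩ := (isCompact_closedBall z₀ ρ).exists_isMaxOn
    ⟨z₀, mem_closedBall_self hρ.le⟩ hφc
  have h0 : ‖g z₀‖ * ρ ≤ φ z₁ := by
    have := hmax (mem_closedBall_self hρ.le : z₀ ∈ closedBall z₀ ρ)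
    simpa [hφ] using this
  rcases eq_or_ne (g z₀) 0 with hg0 | hg0
  · rw [hg0, norm_zero]
    have : 0 ≤ 8 * M + 128 / ρ ^ 2 := by positivity
    simpa using this
  have hg0' : 0 < ‖g z₀‖ := norm_pos_iff.2 hg0
  have hφpos : 0 < φ z₁ := lt_of_lt_of_le (by positivity) h0
  rw [mem_closedBall, dist_eq_norm] at hz₁
  set d : ℝ := ρ - ‖z₁ - z₀‖ with hd
  set G : ℝ := ‖g z₁‖ with hG
  have hd0 : 0 < d := by
    have h1 : 0 ≤ d := by rw [hd]; linarith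
    rcases h1.eq_or_lt with h | h
    · exfalso
      have : φ z₁ = G * d := rfl
      rw [this, ← h, mul_zero] at hφpos
      exact lt_irrefl _ hφpos
    · exact h
  have hG0 : 0 < G := by
    have : φ z₁ = G * d := rfl
    rw [this] at hφpos
    exact (pos_iff_pos_of_mul_pos hφpos).2 hd0
  have hdρ : d ≤ ρ := by
    have := norm_nonneg (z₁ - z₀)
    rw [hd]; linarith
  have hball : ∀ z : ℂ, ‖z - z₁‖ ≤ d / 2 → z ∈ ball z₀ ρ ∧ d / 2 ≤ ρ - ‖z - z₀‖ := by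
    intro z hz
    have h1 : ‖z - z₀‖ ≤ ‖z - z₁‖ + ‖z₁ - z₀‖ := by
      simpa using norm_add_le (z - z₁) (z₁ - z₀)
    have h2 : d / 2 ≤ ρ - ‖z - z₀‖ := by
      have : ‖z₁ - z₀‖ = ρ - d := by rw [hd]; ring
      linarith
    refine ⟨?_, h2⟩
    rw [mem_ball, dist_eq_norm]
    linarith
  have hbd : ∀ z : ℂ, ‖z - z₁‖ ≤ d / 2 → ‖g z‖ ≤ 2 * G := by
    intro z hz
    obtain ⟨h1, h2⟩ := hball z hz
    have h3 : φ z ≤ φ z₁ := hmax (ball_subset_closedBall h1)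
    have h4 : ‖g z‖ * (d / 2) ≤ G * d :=
      (mul_le_mul_of_nonneg_left h2 (norm_nonneg _)).trans h3
    nlinarith
  have hcauchy : ‖iteratedDeriv 2 g z₁‖ ≤ (Nat.factorial 2 : ℝ) * (2 * G) / (d / 2) ^ 2 := by
    refine Complex.norm_iteratedDeriv_le_of_forall_mem_sphere_norm_le 2 (by positivity)
      (DifferentiableOn.diffContOnCl ?_) ?_
    · rw [closure_ball _ (by positivity)]
      exact hg.mono fun z hz => (hball z (by rwa [mem_closedBall, dist_eq_norm] at hz)).1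
    · intro z hz
      exact hbd z (by rw [mem_sphere, dist_eq_norm] at hz; exact hz.le)
  rw [iteratedDeriv_succ, iteratedDeriv_one] at hcauchy
  have hz₁b : z₁ ∈ ball z₀ ρ := (hball z₁ (by simp; positivity)).1
  rw [hgE z₁ hz₁b, norm_mul] at hcauchy
  have h5 : G ^ 2 / 8 - M ≤ ‖E z₁ - g z₁ ^ 2 / 8‖ := by
    have h6 := norm_sub_norm_le (g z₁ ^ 2 / 8) (E z₁)
    rw [norm_sub_rev] at h6
    have h7 : ‖g z₁ ^ 2 / 8‖ = G ^ 2 / 8 := by rw [norm_div, norm_pow]; simp [hG]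
    have h8 := hE z₁ hz₁b
    rw [h7] at h6
    linarith
  have h9 : (G ^ 2 / 8 - M) * G ≤ 16 * G / d ^ 2 := by
    refine (mul_le_mul_of_nonneg_right h5 hG0.le).trans (hcauchy.trans (le_of_eq ?_))
    norm_num [Nat.factorial]
    field_simp
    ring
  have h10 : G ^ 2 / 8 - M ≤ 16 / d ^ 2 := by
    have e : 16 * G / d ^ 2 = (16 / d ^ 2) * G := by ring
    rw [e] at h9
    exact le_of_mul_le_mul_right h9 hG0
  have h11 : G ^ 2 * d ^ 2 ≤ 8 * M * d ^ 2 + 128 := by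
    have h12 : (G ^ 2 / 8 - M) * d ^ 2 ≤ 16 := by
      rwa [← le_div_iff₀ (by positivity)]
    nlinarith
  have h13 : ‖g z₀‖ ^ 2 * ρ ^ 2 ≤ 8 * M * ρ ^ 2 + 128 := by
    have h14 : (‖g z₀‖ * ρ) ^ 2 ≤ (G * d) ^ 2 := by
      have : φ z₁ = G * d := rfl
      rw [this] at h0
      gcongr
    have h15 : 8 * M * d ^ 2 ≤ 8 * M * ρ ^ 2 := by gcongr
    nlinarith
  have h16 : 8 * M + 128 / ρ ^ 2 = (8 * M * ρ ^ 2 + 128) / ρ ^ 2 := by field_simp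
  rw [h16, le_div_iff₀ (by positivity)]
  exact h13

/-- **(iii)**: `‖g z₀‖² ≤ 8 M + 128 / ρ²` -/
theorem sq_le {g E : ℂ → ℂ} {z₀ : ℂ} {ρ M : ℝ} (hρ : 0 < ρ)
    (hg : DifferentiableOn ℂ g (ball z₀ ρ))
    (hgE : ∀ z ∈ ball z₀ ρ, deriv (deriv g) z = (E z - g z ^ 2 / 8) * g z)
    (hE : ∀ z ∈ ball z₀ ρ, ‖E z‖ ≤ M) : ‖g z₀‖ ^ 2 ≤ 8 * M + 128 / ρ ^ 2 := by
  have key : ∀ᶠ σ in nhdsWithin ρ (Iio ρ), ‖g z₀‖ ^ 2 ≤ 8 * M + 128 / σ ^ 2 := by
    have h1 : ∀ᶠ σ in nhdsWithin ρ (Iio ρ), 0 < σ :=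
      (nhdsWithin_le_nhds) (lt_mem_nhds hρ)
    filter_upwards [h1, self_mem_nhdsWithin] with σ h2 h3
    have h3' : σ < ρ := h3
    have hsub : closedBall z₀ σ ⊆ ball z₀ ρ := closedBall_subset_ball h3'
    exact sq_le_closed h2 (hg.mono (ball_subset_closedBall.trans hsub))
      (hg.continuousOn.mono hsub) (fun z hz => hgE z (hsub (ball_subset_closedBall hz)))
      (fun z hz => hE z (hsub (ball_subset_closedBall hz)))
  have hc : ContinuousAt (fun σ : ℝ => 8 * M + 128 / σ ^ 2) ρ := by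
    have : ρ ^ 2 ≠ 0 := by positivity
    fun_prop (disch := exact this)
  exact ge_of_tendsto (hc.tendsto.mono_left nhdsWithin_le_nhds) key

end Vale.Agent.P097.H967.D1max
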